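import Crest.Agent.R153.Moment

/-! The bootstrap: the delay caused by one clause has a bounded second moment. -/

set_option autoImplicit false
open Finset Function Crest.ProbabilityR.RandomSAT

namespace Crest.Agent.R153
open Crest.Agent.R16

theorem nb_or_le {M : ℕ} (b : Fin M → Bool) (J : Finset (Fin M)) :
    nb (fun i => b i || decide (i ∈ J)) ≤ nb b + J.card := by
  unfold nb
  rw [card_eq_sum_ones, ← sum_ite_mem_eq J, ← sum_add_distrib]
  refine sum_le_sum fun i _ => ?_
  by_cases h : i ∈ J <;> cases hb : b i <;> simp [h, hb]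

/-- forcing a literal on a free variable costs at most the shortened clauses -/
theorem delay_of_dead {k n M : ℕ} {v : Fin n} {E : (Fin n → Bool) → ℤ}
    (hE : ∀ σ x, E (update σ v x) = E σ) (b : Fin M → Bool) (J : Finset (Fin M))
    (x y : Fin M → Clause k n) (hy : ∀ i j, (y i).1.1 j ≠ v) {t : ℕ}
    (h1 : t ≤ Tm vi E b (J.piecewise x y))
    (h2 : Dead (En vi E b (J.piecewise x y) (Tm vi E b (J.piecewise x y) - t)) v) :
    Tm vi (fun σ => E σ + ∑ j ∈ J, vx v (x j) σ) (fun i => b i || decide (i ∈ J)) y + t ≤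
      Tm vi E (fun i => b i || decide (i ∈ J)) y := by
  have h3 : Tm vi E b (J.piecewise x y) ≤ Tm vi E (fun i => b i || decide (i ∈ J)) y := by
    refine Tm_le_Tm fun s h => h.mono fun σ => ?_
    unfold En
    refine add_le_add le_rfl (sum_le_sum fun i _ => ?_)
    by_cases hi : i ∈ J
    · rw [if_neg (by simp [hi])]
      split_ifs
      · exact vi_nonneg _ _
      · exact le_rfl
    · simp [hi]
  obtain ⟨z, hz⟩ := h2
  have h4 := Tm_le (vi := vi) (E := E) (b := b) (ω := J.piecewise x y)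
  have h5 : ¬ Tm vi E b (J.piecewise x y) - t <
      Tm vi (fun σ => E σ + ∑ j ∈ J, vx v (x j) σ) (fun i => b i || decide (i ∈ J)) y := by
    rw [lt_Tm_iff vi_nonneg]
    rintro ⟨-, σ, hσ⟩
    refine hz ⟨update σ v z, le_trans ?_ hσ⟩
    generalize Tm vi E b (J.piecewise x y) - t = s
    unfold En lit
    simp only [update_self, if_true, add_zero, hE, add_assoc]
    refine add_le_add le_rfl ?_
    rw [← sum_ite_mem_eq J, ← sum_add_distrib]
    refine sum_le_sum fun i _ => ?_
    by_cases hi : i ∈ J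
    · rw [if_pos hi, if_neg (c := i.val < s ∧ (b i || decide (i ∈ J)) = false) (by simp [hi]),
        piecewise_eq_of_mem _ _ _ hi, add_zero, ← vx_update (u := v) (fun _ h => h) σ z]
      split_ifs
      · exact vi_le_vx _ _ _
      · exact vx_nonneg _ _ _
    · simp [hi, vi_update (hy i)]
  omega

theorem Bnd.step {k : ℕ} (hk : 3 ≤ k) {a : ℝ} (ha0 : 0 ≤ a) (ha : a + 1 / 6 ≤ 2) (hB : Bnd k a) :
    Bnd k (a + 1 / 6) := by
  obtain ⟨r, rfl⟩ : ∃ r, k = r + 1 := ⟨k - 1, by omega⟩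
  intro C₀
  have hr2 : (2 : ℝ) ≤ r := by exact_mod_cast (by omega : 2 ≤ r)
  obtain ⟨K, hK, hm⟩ := moment (r := r) (e := a + 1 / 6) hB (by omega) (by omega)
    (by
      have : (1 / 6 : ℝ) ≤ (r - 1) / (2 * ((r + 1 : ℕ) : ℝ)) := by
        rw [le_div_iff₀ (by positivity)]; push_cast; linarith
      linarith) (by linarith) (by linarith) (2 * C₀)
  obtain ⟨e, he⟩ : ∃ e : ℝ, e = a + 1 / 6 := ⟨_, rfl⟩
  rw [← he] at hm ha ⊢
  have he0 : 0 ≤ e := by linarith
  obtain ⟨Λ, hΛ⟩ : ∃ Λ : ℝ, Λ = (2 : ℝ) ^ (r + 1) := ⟨_, rfl⟩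
  rw [← hΛ] at hm ⊢
  have hΛ1 : 1 ≤ Λ := hΛ ▸ one_le_pow₀ one_le_two
  obtain ⟨lam, hlam⟩ : ∃ lam : ℝ, lam = 8 * Λ ^ (r + 2) := ⟨_, rfl⟩
  have hlam0 : 0 ≤ lam := by rw [hlam]; positivity
  refine ⟨(C₀ * (2 * r + 3)) ^ 2 + K * Real.exp (lam * (r + 1) * C₀), by positivity,
    fun n M U Fr E b w h v hv t ht => ?_⟩
  have hP := isProb_PW M h.hk
  have ht' : (1 : ℝ) ≤ t := by exact_mod_cast ht
  have ht0 : (0 : ℝ) < t := by linarith
  have hu : (0 : ℝ) < U.card := by exact_mod_cast (by have := h.hk; omega : 0 < U.card)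
  have hC : 0 < C₀ := by
    have := h.hM
    have h2 : (0 : ℝ) < C₀ * U.card := lt_of_lt_of_le (by positivity) this
    exact (mul_pos_iff_of_pos_right hu).1 h2
  have hΛw : 1 ≤ Λ ^ w := one_le_pow₀ hΛ1
  have hX0 : 0 < (t : ℝ) ^ (-e) := by positivity
  rw [add_mul, add_mul]
  by_cases hsm : U.card ≤ 2 * r + 3
  · refine le_add_of_le_of_nonneg ?_ (by positivity)
    refine Ex_le_of hP fun ω _ => I_le_of (by positivity) fun ⟨h1, _⟩ => ?_
    have h2 : (t : ℝ) ≤ M + 1 := by exact_mod_cast h1.trans Tm_le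
    have h3 : (U.card : ℝ) ≤ 2 * r + 3 := by exact_mod_cast hsm
    have h4 : (t : ℝ) ≤ C₀ * (2 * r + 3) := h2.trans (h.hM.trans (by gcongr))
    have h5 : (t : ℝ) ^ (-2 : ℝ) ≤ (t : ℝ) ^ (-e) :=
      Real.rpow_le_rpow_of_exponent_le ht' (by linarith)
    have h6 : (t : ℝ) ^ 2 * (t : ℝ) ^ (-2 : ℝ) = 1 := by
      rw [← Real.rpow_natCast, ← Real.rpow_add ht0]; norm_num
    calc (1 : ℝ) = (t : ℝ) ^ 2 * 1 * (t : ℝ) ^ (-2 : ℝ) := by rw [mul_one, h6]
      _ ≤ _ := by gcongr
  refine le_add_of_nonneg_of_le (by positivity) ?_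
  obtain ⟨U', hvU, rfl⟩ : ∃ U', v ∉ U' ∧ U = insert v U' :=
    ⟨U.erase v, notMem_erase v U, (insert_erase (h.sub hv)).symm⟩
  have hcard : (insert v U').card = U'.card + 1 := card_insert_of_notMem hvU
  have hk' : r + 1 ≤ U'.card := by omega
  have hw1 := isProb_unif (Clv_nonempty (r := r) hvU (by omega))
  have hw2 := isProb_unif (Cl_nonempty hk')
  have hmix := unif_mix (Cl_mono (k := r + 1) (subset_insert v U')) (Cl_nonempty hk')
    (Clv_nonempty (r := r) hvU (by omega))
  rw [Clv_ratio hvU (by omega)] at hmix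
  obtain ⟨p, hp⟩ : ∃ p : ℝ, p = (r + 1 : ℝ) / (U'.card + 1) := ⟨_, rfl⟩
  rw [← hp] at hmix
  have hcard' : ((insert v U').card : ℝ) = U'.card + 1 := by exact_mod_cast hcard
  have hp0 : 0 ≤ p := by rw [hp]; positivity
  have hp1 : p ≤ 1 := by
    rw [hp, div_le_one (by positivity)]
    have : (r + 1 : ℝ) ≤ U'.card := by exact_mod_cast hk'
    linarith
  unfold PW
  rw [Ex_mix hw1 hw2 p hmix]
  have key : ∀ J : Finset (Fin M),
      Ex (piW fun _ => unif (Cl (r + 1) (insert v U') \ Cl (r + 1) U'))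
        (fun x : Fin M → Clause (r + 1) n =>
        Ex (piW fun _ => unif (Cl (r + 1) U')) fun y =>
          I (t ≤ Tm vi E b (J.piecewise x y) ∧
            Dead (En vi E b (J.piecewise x y) (Tm vi E b (J.piecewise x y) - t)) v)) ≤
        lam ^ J.card * (K * Λ ^ w * (t : ℝ) ^ (-e)) := by
    intro J
    obtain ⟨t', ht'⟩ : ∃ t', t' = (t - 1) / J.card := ⟨_, rfl⟩
    have h1 : J.card * t' + 1 ≤ t := by
      have := Nat.mul_div_le (t - 1) J.card
      rw [← ht'] at this
      omega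
    have hc := chain (isProb_PW M hk') hw1 (vx v)
      (fun E' y => Tm vi E' (fun i => b i || decide (i ∈ J)) y) E J t'
      (K * Λ ^ (w + (r + 2) * J.card) * ((t' + 1 : ℕ) : ℝ) ^ (-e)) (fun A hA x hx => by
        refine (delay_le hw2 hw1 vi_nonneg (vx v) _ _ (Nat.le_add_left 1 t')).trans ?_
        refine le_trans ((isProb_PW M hk').Ex_mono fun y => mul_le_mul_of_nonneg_left
          (kap_vx_le hvU (by omega) (by omega) _) (I_nonneg _)) ?_
        refine hm n M U' (Fr.erase v \ A.biUnion fun j => univ.image (x j).1.1) _ _ _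
          ⟨?_, ?_, ?_, ?_, hk'⟩ _ (Nat.le_add_left 1 t')
        · exact sdiff_subset.trans (subset_insert_iff.1 h.sub)
        · intro u hu σ z
          rw [mem_sdiff, mem_erase] at hu
          rw [h.ind u hu.1.2]
          congr 1
          refine sum_congr rfl fun j hj => vx_update (fun i _ hi => hu.2 ?_) σ z
          exact mem_biUnion.2 ⟨j, hj, mem_image.2 ⟨i, mem_univ _, hi⟩⟩
        · have h2 : U' \ (Fr.erase v \ A.biUnion fun j => univ.image (x j).1.1) ⊆
              (insert v U' \ Fr) ∪ A.biUnion fun j => univ.image (x j).1.1 := by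
            intro u hu
            have huv : u ≠ v := fun h' => hvU (h' ▸ (mem_sdiff.1 hu).1)
            simp only [mem_sdiff, mem_erase, mem_union, mem_insert] at hu ⊢
            tauto
          have h3 : (A.biUnion fun j => univ.image (x j).1.1).card ≤ A.card * (r + 1) :=
            card_biUnion_le_card_mul _ _ _ fun j _ => card_image_le.trans (by simp)
          have h4 := (card_le_card h2).trans (card_union_le _ _)
          have h5 := nb_or_le b J
          have h6 := Nat.mul_le_mul_right (r + 1) (card_le_card hA)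
          have := h.wt
          nlinarith
        · have h2 : (1 : ℝ) ≤ U'.card := by exact_mod_cast (by omega : 1 ≤ U'.card)
          have := h.hM
          rw [hcard'] at this
          nlinarith) J subset_rfl
    refine le_trans ?_ (hc.trans ?_)
    · refine (IsProb.pi fun _ => hw1).Ex_mono fun x =>
        Ex_mono_supp (isProb_PW M hk') fun y hy => I_mono fun ⟨h2, h3⟩ => ?_
      have h4 := delay_of_dead (h.ind v hv) b J x y
        (fun i j hj => hvU (hj ▸ mem_Cl.1 (mem_of_unif (piW_ne_zero hy i)) j)) h2 h3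
      omega
    · rcases Nat.eq_zero_or_pos J.card with h0 | h0
      · rw [h0]; simp only [Nat.cast_zero, zero_mul]; positivity
      have hN : (1 : ℝ) ≤ J.card := by exact_mod_cast h0
      have h2 : (t : ℝ) / J.card ≤ ((t' + 1 : ℕ) : ℝ) := by
        rw [div_le_iff₀ (by linarith)]
        have := Nat.lt_mul_div_succ (t - 1) h0
        rw [← ht'] at this
        exact_mod_cast (by rw [mul_comm]; omega : t ≤ (t' + 1) * J.card)
      have h3 : ((t' + 1 : ℕ) : ℝ) ^ (-e) ≤ (J.card : ℝ) ^ 2 * (t : ℝ) ^ (-e) := by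
        refine (Real.rpow_le_rpow_of_nonpos (by positivity) h2 (by linarith)).trans ?_
        rw [Real.div_rpow ht0.le (by linarith), Real.rpow_neg (show (0 : ℝ) ≤ J.card by linarith),
          div_inv_eq_mul, mul_comm]
        refine mul_le_mul_of_nonneg_right ?_ hX0.le
        rw [← Real.rpow_natCast]
        exact Real.rpow_le_rpow_of_exponent_le hN (by exact_mod_cast ha)
      have h4 : (J.card : ℝ) ^ 3 ≤ 8 ^ J.card := by
        have h5 : (J.card : ℝ) ≤ 2 ^ J.card := by exact_mod_cast Nat.lt_two_pow_self.le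
        refine (pow_le_pow_left₀ (by positivity) h5 3).trans (le_of_eq ?_)
        rw [← pow_mul, mul_comm, pow_mul]; norm_num
      calc _ ≤ J.card * (K * Λ ^ (w + (r + 2) * J.card) * ((J.card : ℝ) ^ 2 * (t : ℝ) ^ (-e))) := by
            gcongr
        _ = (J.card : ℝ) ^ 3 * (Λ ^ (r + 2)) ^ J.card * (K * Λ ^ w * (t : ℝ) ^ (-e)) := by
            rw [pow_add, pow_mul]; ring
        _ ≤ 8 ^ J.card * (Λ ^ (r + 2)) ^ J.card * (K * Λ ^ w * (t : ℝ) ^ (-e)) := by gcongr
        _ = _ := by rw [hlam, mul_pow]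
  have h1p : 0 ≤ 1 - p := by linarith
  refine (sum_le_sum fun J _ => mul_le_mul_of_nonneg_left (key J) (by positivity)).trans ?_
  simp only [← mul_assoc _ (lam ^ _)]
  rw [← sum_mul, sum_binom, Fintype.card_fin]
  have h1 : (p * lam + (1 - p)) ^ M ≤ Real.exp (lam * (r + 1) * C₀) := by
    have h2 : p * lam + (1 - p) ≤ Real.exp (p * lam) := by linarith [Real.add_one_le_exp (p * lam)]
    refine (pow_le_pow_left₀ (by positivity) h2 M).trans ?_
    rw [← Real.exp_nat_mul]
    refine Real.exp_le_exp.2 ?_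
    have h3 : (M : ℝ) * p ≤ (r + 1) * C₀ := by
      rw [hp, ← hcard', ← mul_div_assoc, div_le_iff₀ hu]
      have := h.hM
      nlinarith
    nlinarith
  calc _ ≤ Real.exp (lam * (r + 1) * C₀) * (K * Λ ^ w * (t : ℝ) ^ (-e)) := by gcongr
    _ = _ := by ring

theorem bnd_two {k : ℕ} (hk : 3 ≤ k) : Bnd k 2 := by
  have h : ∀ R : ℕ, R ≤ 12 → Bnd k (R / 6) := by
    intro R
    induction R with
    | zero => intro _; simpa using bnd_zero k
    | succ R ih =>
      intro hR
      have h1 : (R : ℝ) + 1 ≤ 12 := by exact_mod_cast hR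
      have := (ih (by omega)).step hk (by positivity) (by linarith)
      convert this using 1
      push_cast; ring
  have := h 12 le_rfl
  norm_num at this
  exact this

theorem sq_eq_sum (D N : ℕ) (h : D ≤ N) :
    (D : ℝ) ^ 2 = ∑ t ∈ range N, (2 * (t : ℝ) + 1) * I (t < D) := by
  have h1 : ∀ D : ℕ, (D : ℝ) ^ 2 = ∑ t ∈ range D, (2 * (t : ℝ) + 1) := by
    intro D
    induction D with
    | zero => simp
    | succ D ih => rw [sum_range_succ, ← ih]; push_cast; ring
  rw [h1, ← sum_subset (range_subset_range.2 h)]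
  · exact sum_congr rfl fun t ht => by rw [I_of (mem_range.1 ht), mul_one]
  · intro t _ ht
    rw [I_of_not (by simpa using ht), mul_zero]

/-- the delay caused by one clause has a bounded second moment -/
theorem delay_sq {k : ℕ} (hk : 3 ≤ k) (C₀ : ℝ) : ∃ K : ℝ, 0 ≤ K ∧ ∀ n M : ℕ, k ≤ n →
    (M : ℝ) + 1 ≤ C₀ * n → ∀ (j : ℤ) (i : Fin M),
    Ex (PW k M (univ : Finset (Fin n))) (fun ω =>
      ((Tm vi (fun _ => j) (fun _ => false) ω : ℝ) -
        Tm vi (fun _ => j) (fun i' => decide (i' = i)) ω) ^ 2) ≤ K := by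
  have hk3 : (3 : ℝ) ≤ k := by exact_mod_cast hk
  obtain ⟨K, hK, hm⟩ := moment (r := k) (e := 7 / 3) (bnd_two hk) (by omega) le_rfl
    (by
      have : (1 / 3 : ℝ) ≤ (k - 1) / (2 * k) := by
        rw [le_div_iff₀ (by positivity)]; linarith
      linarith) (by linarith) (by norm_num) C₀
  have hs : Summable fun t : ℕ => ((t + 1 : ℕ) : ℝ) ^ (-(4 / 3) : ℝ) :=
    (summable_nat_add_iff (f := fun t : ℕ => (t : ℝ) ^ (-(4 / 3) : ℝ)) 1).2
      (Real.summable_nat_rpow.2 (by norm_num))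
  obtain ⟨Z, hZ⟩ : ∃ Z, Z = ∑' t : ℕ, ((t + 1 : ℕ) : ℝ) ^ (-(4 / 3) : ℝ) := ⟨_, rfl⟩
  have hZ0 : 0 ≤ Z := hZ ▸ tsum_nonneg fun t => by positivity
  refine ⟨(C₀ * (2 * k)) ^ 2 + 2 * K * 2 ^ k * Z, by positivity, fun n M hn hM j i => ?_⟩
  have hcu : (univ : Finset (Fin n)).card = n := by simp
  have hku : k ≤ (univ : Finset (Fin n)).card := by rw [hcu]; exact hn
  have hP := isProb_PW M hku
  have hle : ∀ ω : Fin M → Clause k n, Tm vi (fun _ => j) (fun _ => false) ω ≤
      Tm vi (fun _ => j) (fun i' => decide (i' = i)) ω := fun ω =>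
    Tm_anti vi_nonneg (fun _ => le_rfl) fun _ _ => rfl
  have hsq : ∀ ω : Fin M → Clause k n, ((Tm vi (fun _ => j) (fun _ => false) ω : ℝ) -
      Tm vi (fun _ => j) (fun i' => decide (i' = i)) ω) ^ 2 =
      ((Tm vi (fun _ => j) (fun i' => decide (i' = i)) ω -
        Tm vi (fun _ => j) (fun _ => false) ω : ℕ) : ℝ) ^ 2 := fun ω => by
    rw [Nat.cast_sub (hle ω)]; ring
  have hD : ∀ ω : Fin M → Clause k n, Tm vi (fun _ => j) (fun i' => decide (i' = i)) ω -
      Tm vi (fun _ => j) (fun _ => false) ω ≤ M + 1 := fun ω => by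
    have := Tm_le (vi := vi) (E := fun _ => j) (b := fun i' => decide (i' = i)) (ω := ω)
    omega
  rw [Ex_congr hsq]
  by_cases hsm : n ≤ 2 * k
  · refine le_add_of_le_of_nonneg (Ex_le_of hP fun ω _ => ?_) (by positivity)
    refine pow_le_pow_left₀ (by positivity) ?_ 2
    have h1 : ((Tm vi (fun _ => j) (fun i' => decide (i' = i)) ω -
        Tm vi (fun _ => j) (fun _ => false) ω : ℕ) : ℝ) ≤ M + 1 := by
      exact_mod_cast hD ω
    have h2 : (n : ℝ) ≤ 2 * k := by exact_mod_cast hsm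
    have h3 : (0 : ℝ) < n := by exact_mod_cast (by omega : 0 < n)
    have hC : 0 < C₀ := (mul_pos_iff_of_pos_right h3).1 (lt_of_lt_of_le (by positivity) hM)
    exact h1.trans (hM.trans (by gcongr))
  refine le_add_of_nonneg_of_le (by positivity) ?_
  rw [Ex_congr fun ω => sq_eq_sum _ (M + 1) (hD ω), Ex_sum]
  have hw := isProb_unif (Cl_nonempty hku)
  have key : ∀ t : ℕ, Ex (PW k M (univ : Finset (Fin n))) (fun ω =>
      I (t < Tm vi (fun _ => j) (fun i' => decide (i' = i)) ω -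
        Tm vi (fun _ => j) (fun _ => false) ω)) ≤ K * 2 ^ k * ((t + 1 : ℕ) : ℝ) ^ (-(7 / 3) : ℝ) := by
    intro t
    have h1 := hm n M univ univ (fun _ => j) (fun i' => decide (i' = i)) 1
      ⟨subset_rfl, fun _ _ _ _ => rfl, by simp [nb], by rwa [hcu], hku⟩ (t + 1) (by omega)
    rw [pow_one] at h1
    refine le_trans ?_ h1
    refine le_trans ?_ (hP.Ex_mono fun ω => mul_le_mul_of_nonneg_left
      (kap_vi_le (by omega) (by omega) _) (I_nonneg _))
    refine le_trans ?_ (delay_le hw hw vi_nonneg vi _ _ (by omega))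
    rw [Ex_resample (fun _ => hw) i, Ex_comm]
    refine hw.Ex_mono fun c => hP.Ex_mono fun ω => I_mono fun h2 => ?_
    rw [Tm_update_blank (by simp)] at h2
    have h3 : Tm vi (fun σ => j + vi c σ) (fun i' => decide (i' = i)) ω ≤
        Tm vi (fun _ => j) (fun _ => false) (update ω i c) := by
      refine Tm_le_Tm fun s h => h.mono fun σ => ?_
      unfold En
      rw [add_assoc]
      refine add_le_add le_rfl ?_
      rw [← add_sum_erase _ _ (mem_univ i), ← add_sum_erase _ _ (mem_univ i), update_self]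
      refine add_le_add ?_ (le_add_of_nonneg_of_le (by simp) (sum_le_sum fun i' hi' => ?_))
      · split_ifs
        · exact le_rfl
        · exact vi_nonneg _ _
      · have := ne_of_mem_erase hi'
        simp [this]
    omega
  calc _ ≤ ∑ t ∈ range (M + 1), 2 * K * 2 ^ k * ((t + 1 : ℕ) : ℝ) ^ (-(4 / 3) : ℝ) := by
        refine sum_le_sum fun t _ => ?_
        rw [Ex_const_mul]
        have h1 : ((t + 1 : ℕ) : ℝ) ^ (-(4 / 3) : ℝ) =
            ((t + 1 : ℕ) : ℝ) * ((t + 1 : ℕ) : ℝ) ^ (-(7 / 3) : ℝ) := by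
          rw [mul_comm, ← Real.rpow_add_one (by positivity)]; norm_num
        have h2 : (2 * (t : ℝ) + 1) ≤ 2 * ((t + 1 : ℕ) : ℝ) := by push_cast; linarith
        calc _ ≤ (2 * ((t + 1 : ℕ) : ℝ)) * (K * 2 ^ k * ((t + 1 : ℕ) : ℝ) ^ (-(7 / 3) : ℝ)) :=
              mul_le_mul h2 (key t) (hP.Ex_nonneg fun _ => I_nonneg _) (by positivity)
          _ = _ := by rw [h1]; ring
    _ ≤ _ := by
        rw [← mul_sum, hZ]
        exact mul_le_mul_of_nonneg_left (hs.sum_le_tsum _ fun t _ => by positivity) (by positivity)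

end Crest.Agent.R153
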