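import Crest.Agent.R153.Defs
import Crest.Agent.Lib.PrimrecRat.Rat

/-! Row 153: `satProb 3` is a computable rational, and a real number that is semicomputable from
both sides is computable. -/

set_option autoImplicit false
open MeasureTheory Filter Crest.ProbabilityR.RandomSAT Crest.ProbabilityR.Diluted
open Crest.Agent.PrimrecRat

namespace Crest.Agent.R153

/-- all words of length `m` over the alphabet `A` -/
def words {D : Type} (A : List D) (m : ℕ) : List (List D) :=
  (fun W => A.flatMap fun c => W.map fun l => c :: l)^[m] [[]]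

theorem words_succ {D : Type} (A : List D) (m : ℕ) :
    words A (m + 1) = A.flatMap fun c => (words A m).map fun l => c :: l := by
  unfold words; rw [Function.iterate_succ_apply']

theorem pr_words {α D : Type} [Primcodable α] [Primcodable D] {f : α → List D} {g : α → ℕ}
    (hf : Primrec f) (hg : Primrec g) : Primrec (fun x => words (f x) (g x)) := by
  unfold words
  fun_prop

theorem sum_map_flatMap {D E : Type} (A : List D) (f : D → List E) (G : E → ℕ) :
    ((A.flatMap f).map G).sum = (A.map fun c => ((f c).map G).sum).sum := by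
  induction A with
  | nil => simp
  | cons a A ih => simp [List.flatMap_cons, ih]

theorem sum_words {C D : Type} [Fintype C] (enc : C → D) (A : List D)
    (hA : ∀ g : D → ℕ, ∑ c, g (enc c) = (A.map g).sum) (m : ℕ) (G : List D → ℕ) :
    ∑ F : Fin m → C, G (List.ofFn fun i => enc (F i)) = ((words A m).map G).sum := by
  induction m generalizing G with
  | zero => simp [words]
  | succ m ih =>
    rw [words_succ, sum_map_flatMap, ← hA, ← (Fin.consEquiv fun _ => C).sum_comp,
      Fintype.sum_prod_type]
    refine Finset.sum_congr rfl fun c _ => ?_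
    rw [List.map_map, ← ih]
    refine Finset.sum_congr rfl fun F _ => ?_
    simp [Fin.consEquiv, List.ofFn_succ]

/-- all literals -/
def lits (N : ℕ) : List (ℕ × Bool) := (List.range N).flatMap fun i => [(i, true), (i, false)]

theorem sum_lits (N : ℕ) (g : ℕ × Bool → ℕ) :
    ∑ x : Fin N × Bool, g ((x.1 : ℕ), x.2) = ((lits N).map g).sum := by
  rw [lits, sum_map_flatMap, Fintype.sum_prod_type,
    Fin.sum_univ_eq_sum_range (fun i => ∑ b : Bool, g (i, b)) N]
  induction N with
  | zero => simp
  | succ N ih => rw [Finset.sum_range_succ, ih, List.range_succ]; simp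

/-- code of a clause -/
def encCl {N : ℕ} (c : Clause 3 N) : List (ℕ × Bool) := List.ofFn fun i => ((c.1.1 i : ℕ), c.2 i)

/-- the three variables are distinct -/
def Dist (w : List (ℕ × Bool)) : Prop :=
  ¬ (w.getD 0 (0, false)).1 = (w.getD 1 (0, false)).1 ∧
    ¬ (w.getD 0 (0, false)).1 = (w.getD 2 (0, false)).1 ∧
    ¬ (w.getD 1 (0, false)).1 = (w.getD 2 (0, false)).1

instance : DecidablePred Dist := fun w => by unfold Dist; infer_instance

/-- all clause codes -/
def clauses (N : ℕ) : List (List (ℕ × Bool)) :=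
  (words (lits N) 3).flatMap fun w => if Dist w then [w] else []

theorem dist_iff {N : ℕ} (w : Fin 3 → Fin N × Bool) :
    Dist (List.ofFn fun i => (((w i).1 : ℕ), (w i).2)) ↔ Function.Injective fun i => (w i).1 := by
  simp only [Dist, List.ofFn_succ, List.ofFn_zero, List.getD_cons_zero, List.getD_cons_succ,
    Fin.val_inj]
  constructor
  · rintro ⟨h1, h2, h3⟩ i j hij
    fin_cases i <;> fin_cases j <;> simp_all
  · intro h
    refine ⟨fun e => ?_, fun e => ?_, fun e => ?_⟩ <;> exact absurd (h e) (by decide)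

theorem sum_clauses (N : ℕ) (g : List (ℕ × Bool) → ℕ) :
    ∑ c : Clause 3 N, g (encCl c) = ((clauses N).map g).sum := by
  classical
  rw [clauses, sum_map_flatMap,
    ← sum_words (fun x : Fin N × Bool => ((x.1 : ℕ), x.2)) (lits N) (sum_lits N) 3]
  have : ∀ w : Fin 3 → Fin N × Bool,
      (List.map g (if Dist (List.ofFn fun i => (((w i).1 : ℕ), (w i).2)) then
        [List.ofFn fun i => (((w i).1 : ℕ), (w i).2)] else [])).sum =
      if Function.Injective (fun i => (w i).1) then
        g (List.ofFn fun i => (((w i).1 : ℕ), (w i).2)) else 0 := by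
    intro w
    by_cases h : Function.Injective (fun i => (w i).1)
    · rw [if_pos h, if_pos ((dist_iff w).2 h)]; simp
    · rw [if_neg h, if_neg (fun h' => h ((dist_iff w).1 h'))]; simp
  simp only [this]
  rw [← Finset.sum_filter]
  refine Finset.sum_bij' (fun c _ => fun i => (c.1.1 i, c.2 i))
    (fun w hw => (⟨fun i => (w i).1, (Finset.mem_filter.1 hw).2⟩, fun i => (w i).2))
    (fun c _ => Finset.mem_filter.2 ⟨Finset.mem_univ _, c.1.2⟩) (fun _ _ => Finset.mem_univ _)
    (fun _ _ => rfl) (fun _ _ => rfl) (fun _ _ => rfl)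

/-- number of true literals -/
def nTrue (s : List Bool) (w : List (ℕ × Bool)) : ℕ :=
  (w.map fun x => if s.getD x.1 false = x.2 then 1 else 0).sum

/-- number of violated clauses -/
def nBad (s : List Bool) (l : List (List (ℕ × Bool))) : ℕ :=
  (l.map fun w => if nTrue s w = 0 then 1 else 0).sum

/-- number of satisfying assignments -/
def nSat (N : ℕ) (l : List (List (ℕ × Bool))) : ℕ :=
  ((words [true, false] N).map fun s => if nBad s l = 0 then 1 else 0).sum

/-- number of satisfiable formulas -/
def numSat (N m : ℕ) : ℕ :=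
  ((words (clauses N) m).map fun l => if nSat N l = 0 then 0 else 1).sum

/-- number of formulas -/
def numAll (N m : ℕ) : ℕ := ((words (clauses N) m).map fun _ => 1).sum

theorem nTrue_eq_zero {N : ℕ} (σ : Fin N → Bool) (c : Clause 3 N) :
    nTrue (List.ofFn σ) (encCl c) = 0 ↔ ¬ ClauseSat σ c := by
  rw [nTrue, encCl, List.map_ofFn, List.sum_ofFn, Finset.sum_eq_zero_iff, ClauseSat, not_exists]
  refine forall_congr' fun i => ?_
  simp [List.getD_eq_getElem?_getD]

theorem nBad_eq_zero {N m : ℕ} (σ : Fin N → Bool) (F : Fin m → Clause 3 N) :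
    nBad (List.ofFn σ) (List.ofFn fun j => encCl (F j)) = 0 ↔ ∀ j, ClauseSat σ (F j) := by
  rw [nBad, List.map_ofFn, List.sum_ofFn, Finset.sum_eq_zero_iff]
  refine forall_congr' fun j => ?_
  simp [nTrue_eq_zero]

theorem nSat_eq_zero {N m : ℕ} (F : Fin m → Clause 3 N) :
    nSat N (List.ofFn fun j => encCl (F j)) = 0 ↔ ¬ Satisfiable F := by
  rw [nSat, ← sum_words (fun b : Bool => b) [true, false] (fun g => by simp) N,
    Finset.sum_eq_zero_iff, Satisfiable, not_exists]
  refine forall_congr' fun σ => ?_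
  simp [nBad_eq_zero]

theorem satProb_eq (N m : ℕ) : satProb 3 N m = (numSat N m : ℝ) / (numAll N m : ℝ) := by
  classical
  rw [numSat, numAll, ← sum_words encCl (clauses N) (sum_clauses N) m,
    ← sum_words encCl (clauses N) (sum_clauses N) m, satProb, Crest.FinProb.uniformProb,
    Finset.card_filter]
  congr 2
  · refine Finset.sum_congr rfl fun F _ => ?_
    by_cases h : Satisfiable F
    · rw [if_pos (by exact h), if_neg (fun h' => (nSat_eq_zero F).1 h' h)]
    · rw [if_neg (by exact h), if_pos ((nSat_eq_zero F).2 h)]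
  · simp

@[fun_prop] theorem pr_getD {α β : Type} [Primcodable α] [Primcodable β] {f : α → List β}
    {g : α → ℕ} (d : β) (hf : Primrec f) (hg : Primrec g) :
    Primrec (fun x => (f x).getD (g x) d) := (Primrec.list_getD d).comp hf hg

attribute [fun_prop] pr_words

theorem pr_lits : Primrec lits := by unfold lits; fun_prop

theorem pp_dist : PrimrecPred Dist := by unfold Dist; fun_prop

theorem pr_clauses : Primrec clauses := by
  unfold clauses
  have h1 := pr_lits
  have h2 := pp_dist
  fun_prop

@[fun_prop] theorem pr_nTrue {α : Type} [Primcodable α] {f : α → List Bool}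
    {g : α → List (ℕ × Bool)} (hf : Primrec f) (hg : Primrec g) :
    Primrec (fun x => nTrue (f x) (g x)) := by
  unfold nTrue; fun_prop

@[fun_prop] theorem pr_nBad {α : Type} [Primcodable α] {f : α → List Bool}
    {g : α → List (List (ℕ × Bool))} (hf : Primrec f) (hg : Primrec g) :
    Primrec (fun x => nBad (f x) (g x)) := by
  unfold nBad; fun_prop

@[fun_prop] theorem pr_nSat {α : Type} [Primcodable α] {f : α → ℕ}
    {g : α → List (List (ℕ × Bool))} (hf : Primrec f) (hg : Primrec g) :
    Primrec (fun x => nSat (f x) (g x)) := by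
  unfold nSat; fun_prop

theorem pr_numSat : Primrec (fun p : ℕ × ℕ => numSat p.1 p.2) := by
  unfold numSat
  have h1 := pr_clauses
  fun_prop

theorem pr_numAll : Primrec (fun p : ℕ × ℕ => numAll p.1 p.2) := by
  unfold numAll
  have h1 := pr_clauses
  fun_prop

theorem satProb_primrec : ∃ q : ℕ × ℕ → ℚ, Primrec q ∧ ∀ N m, satProb 3 N m = q (N, m) := by
  refine ⟨fun p => (numSat p.1 p.2 : ℚ) / (numAll p.1 p.2 : ℚ),
    pr_rat_div (pr_natCast_rat pr_numSat) (pr_natCast_rat pr_numAll), fun N m => ?_⟩
  rw [satProb_eq]; push_cast; rfl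

theorem satProb_rat : ∃ q : ℕ × ℕ → ℚ, Computable q ∧ ∀ N m, satProb 3 N m = q (N, m) := by
  obtain ⟨q, h1, h2⟩ := satProb_primrec
  exact ⟨q, h1.to_comp, h2⟩

theorem cpred_comp {α β : Type} [Primcodable α] [Primcodable β] {p : β → Prop} {f : α → β}
    (hp : ComputablePred p) (hf : Computable f) : ComputablePred fun x => p (f x) := by
  classical exact (hp.decide.comp hf).computablePred

theorem cpred_and {α : Type} [Primcodable α] {p q : α → Prop}
    (hp : ComputablePred p) (hq : ComputablePred q) : ComputablePred fun x => p x ∧ q x := by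
  classical
  exact ((Primrec.and.to_comp.comp hp.decide hq.decide).of_eq fun x => by simp).computablePred

theorem cpred_or {α : Type} [Primcodable α] {p q : α → Prop}
    (hp : ComputablePred p) (hq : ComputablePred q) : ComputablePred fun x => p x ∨ q x := by
  classical
  exact ((Primrec.or.to_comp.comp hp.decide hq.decide).of_eq fun x => by simp).computablePred

theorem computable_of_semi (α : ℝ) (h0 : 0 ≤ α) (L U : ℚ × ℕ → Prop) (hL : ComputablePred L)
    (hU : ComputablePred U)
    (L1 : ∀ (a : ℚ) t, 0 < a → L (a, t) → (a : ℝ) ≤ α)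
    (L2 : ∀ a : ℚ, 0 < a → (a : ℝ) < α → ∃ t, L (a, t))
    (U1 : ∀ (a : ℚ) t, 0 < a → U (a, t) → α ≤ a) (U2 : ∀ a : ℚ, 0 < a → α < a → ∃ t, U (a, t)) :
    ∃ f : ℕ → ℕ, Computable f ∧ ∀ r : ℕ, |(f r : ℝ) / 2 ^ r - α| ≤ 1 / 2 ^ r := by
  classical
  let P : ℕ → ℕ → Prop := fun r k =>
    (k.unpair.1 ≤ 1 ∨ L ((((k.unpair.1 : ℚ) - 1) / 2 ^ r), k.unpair.2.unpair.1)) ∧
      U ((((k.unpair.1 : ℚ) + 1) / 2 ^ r), k.unpair.2.unpair.2)
  have hP : ComputablePred fun p : ℕ × ℕ => P p.1 p.2 := by
    refine cpred_and (cpred_or ?_ (cpred_comp hL ?_)) (cpred_comp hU ?_)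
    · exact PrimrecPred.computablePred (by fun_prop)
    · exact Primrec.to_comp (by fun_prop)
    · exact Primrec.to_comp (by fun_prop)
  have hex : ∀ r, ∃ k, P r k := by
    intro r
    have hp : (0 : ℝ) < 2 ^ r := by positivity
    set j := ⌊2 ^ r * α⌋₊ with hj
    have h1 : (j : ℝ) ≤ 2 ^ r * α := Nat.floor_le (by positivity)
    have h2 : 2 ^ r * α < j + 1 := Nat.lt_floor_add_one _
    obtain ⟨t', ht'⟩ := U2 (((j : ℚ) + 1) / 2 ^ r) (by positivity) (by
      push_cast; rw [lt_div_iff₀ hp]; linarith)
    by_cases hj1 : j ≤ 1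
    · exact ⟨Nat.pair j (Nat.pair 0 t'), by simp only [P, Nat.unpair_pair]; exact ⟨Or.inl hj1, ht'⟩⟩
    · have hj2 : (1 : ℚ) < j := by exact_mod_cast not_le.1 hj1
      obtain ⟨t, ht⟩ := L2 (((j : ℚ) - 1) / 2 ^ r) (div_pos (by linarith) (by positivity)) (by
        push_cast; rw [div_lt_iff₀ hp]; linarith)
      exact ⟨Nat.pair j (Nat.pair t t'), by simp only [P, Nat.unpair_pair]; exact ⟨Or.inr ht, ht'⟩⟩
  refine ⟨fun r => (Nat.find (hex r)).unpair.1,
    (Primrec.fst.comp Primrec.unpair).to_comp.comp (Computable.find hP hex), fun r => ?_⟩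
  obtain ⟨ha, hb⟩ := Nat.find_spec (hex r)
  beta_reduce
  generalize (Nat.find (hex r)).unpair.1 = j at ha hb ⊢
  have hp : (0 : ℝ) < 2 ^ r := by positivity
  have h1 := U1 _ _ (by positivity) hb
  have h2 : ((j : ℝ) - 1) / 2 ^ r ≤ α := by
    by_cases hj1 : j ≤ 1
    · have : (j : ℝ) ≤ 1 := by exact_mod_cast hj1
      exact (div_nonpos_of_nonpos_of_nonneg (by linarith) hp.le).trans h0
    · have hj2 : (1 : ℚ) < j := by exact_mod_cast not_le.1 hj1
      have := L1 _ _ (div_pos (by linarith) (by positivity)) (ha.resolve_left hj1)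
      push_cast at this
      exact this
  push_cast at h1
  rw [add_div] at h1
  rw [sub_div] at h2
  rw [abs_le]
  constructor <;> linarith

end Crest.Agent.R153
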