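import Crest.Agent.R153.Proc
import Crest.Prelude.Def_RandomSAT

/-! Counting clauses; killing probabilities versus the number of frozen variables. -/

set_option autoImplicit false
open Finset Function Crest.ProbabilityR.RandomSAT

namespace Crest.Agent.R153
open Crest.Agent.R16

variable {k n : ℕ}

/-- the violation indicator of a clause -/
def vi (c : Clause k n) (σ : Fin n → Bool) : ℤ := if ∃ i, σ (c.1.1 i) = c.2 i then 0 else 1

/-- the violation indicator of a clause with the variable `v` removed -/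
def vx (v : Fin n) (c : Clause k n) (σ : Fin n → Bool) : ℤ :=
  if ∃ i, c.1.1 i ≠ v ∧ σ (c.1.1 i) = c.2 i then 0 else 1

/-- the violation indicator of a literal -/
def lit (u : Fin n) (b : Bool) (σ : Fin n → Bool) : ℤ := if σ u = b then 0 else 1

/-- one of the two literals on `u` kills -/
def Dead (E : (Fin n → Bool) → ℤ) (u : Fin n) : Prop := ∃ b, ¬ Alive fun σ => E σ + lit u b σ

open Classical in
/-- the frozen variables in `U` -/
noncomputable def dead (E : (Fin n → Bool) → ℤ) (U : Finset (Fin n)) : Finset (Fin n) :=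
  U.filter (Dead E)

theorem mem_dead {E : (Fin n → Bool) → ℤ} {U : Finset (Fin n)} {u : Fin n} :
    u ∈ dead E U ↔ u ∈ U ∧ Dead E u := by
  classical
  unfold dead
  rw [mem_filter]

theorem dead_subset (E : (Fin n → Bool) → ℤ) (U : Finset (Fin n)) : dead E U ⊆ U :=
  fun _ h => (mem_dead.1 h).1

theorem card_dead (E : (Fin n → Bool) → ℤ) (U : Finset (Fin n)) :
    ((dead E U).card : ℝ) = ∑ u ∈ U, I (Dead E u) := by
  classical
  unfold dead
  convert card_filter_eq_sum_I U (Dead E)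

theorem vi_nonneg (c : Clause k n) (σ : Fin n → Bool) : 0 ≤ vi c σ := by
  unfold vi; split_ifs <;> norm_num

theorem vi_le_one (c : Clause k n) (σ : Fin n → Bool) : vi c σ ≤ 1 := by
  unfold vi; split_ifs <;> norm_num

theorem vx_nonneg (v : Fin n) (c : Clause k n) (σ : Fin n → Bool) : 0 ≤ vx v c σ := by
  unfold vx; split_ifs <;> norm_num

theorem lit_nonneg (u : Fin n) (b : Bool) (σ : Fin n → Bool) : 0 ≤ lit u b σ := by
  unfold lit; split_ifs <;> norm_num

theorem vi_le_vx (v : Fin n) (c : Clause k n) (σ : Fin n → Bool) : vi c σ ≤ vx v c σ := by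
  unfold vx; split_ifs with h
  · obtain ⟨i, -, hi⟩ := h
    unfold vi; rw [if_pos ⟨i, hi⟩]
  · exact vi_le_one c σ

theorem vx_le_lit {v : Fin n} {c : Clause k n} {i : Fin k} (hi : c.1.1 i ≠ v) (σ : Fin n → Bool) :
    vx v c σ ≤ lit (c.1.1 i) (c.2 i) σ := by
  unfold lit; split_ifs with h
  · unfold vx; rw [if_pos ⟨i, hi, h⟩]
  · unfold vx; split_ifs <;> norm_num

theorem vi_le_lit (c : Clause k n) (i : Fin k) (σ : Fin n → Bool) :
    vi c σ ≤ lit (c.1.1 i) (c.2 i) σ := by
  unfold lit; split_ifs with h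
  · unfold vi; rw [if_pos ⟨i, h⟩]
  · exact vi_le_one c σ

theorem vi_update {c : Clause k n} {u : Fin n} (h : ∀ i, c.1.1 i ≠ u) (σ : Fin n → Bool) (b : Bool) :
    vi c (update σ u b) = vi c σ := by
  unfold vi
  simp only [update_of_ne (h _)]

theorem vx_update {v : Fin n} {c : Clause k n} {u : Fin n} (h : ∀ i, c.1.1 i ≠ v → c.1.1 i ≠ u)
    (σ : Fin n → Bool) (b : Bool) : vx v c (update σ u b) = vx v c σ := by
  unfold vx
  refine if_congr (exists_congr fun i => and_congr_right fun hi => ?_) rfl rfl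
  rw [update_of_ne (h i hi)]

/-- injective variable tuples inside `T` -/
def Inj (k : ℕ) (T : Finset (Fin n)) : Finset {v : Fin k → Fin n // Injective v} :=
  univ.filter fun f => ∀ i, f.1 i ∈ T

/-- clauses on the variables of `U` -/
def Cl (k : ℕ) (U : Finset (Fin n)) : Finset (Clause k n) := univ.filter fun c => ∀ i, c.1.1 i ∈ U

theorem mem_Cl {U : Finset (Fin n)} {c : Clause k n} : c ∈ Cl k U ↔ ∀ i, c.1.1 i ∈ U := by
  simp [Cl]

theorem Cl_univ : Cl k (univ : Finset (Fin n)) = univ := by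
  ext c; simp [mem_Cl]

theorem Cl_mono {U U' : Finset (Fin n)} (h : U ⊆ U') : Cl k U ⊆ Cl k U' :=
  fun _ hc => mem_Cl.2 fun i => h (mem_Cl.1 hc i)

theorem card_Inj (T : Finset (Fin n)) : (Inj k T).card = T.card.descFactorial k := by
  have e : {f : {v : Fin k → Fin n // Injective v} // ∀ i, f.1 i ∈ T} ≃ (Fin k ↪ T) :=
    { toFun := fun f => ⟨fun i => ⟨f.1.1 i, f.2 i⟩, fun i j h => f.1.2 (congrArg Subtype.val h)⟩
      invFun := fun g => ⟨⟨fun i => (g i).1, fun i j h => g.injective (Subtype.ext h)⟩,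
        fun i => (g i).2⟩
      left_inv := fun _ => rfl
      right_inv := fun _ => rfl }
  have h := Fintype.card_congr e
  rw [Fintype.card_subtype, Fintype.card_embedding_eq, Fintype.card_coe, Fintype.card_fin] at h
  exact h

theorem card_Cl (U : Finset (Fin n)) : (Cl k U).card = U.card.descFactorial k * 2 ^ k := by
  have : Cl k U = Inj k U ×ˢ univ := by
    ext c; simp [mem_Cl, Inj]
  rw [this, card_product, card_Inj]
  simp

theorem Cl_nonempty {U : Finset (Fin n)} (h : k ≤ U.card) : (Cl k U).Nonempty := by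
  rw [← card_pos, card_Cl]
  exact mul_pos (Nat.descFactorial_pos.2 h) (by positivity)

theorem card_Cl_sdiff {r : ℕ} {D : Finset (Fin n)} {v : Fin n} (hv : v ∉ D) :
    (Cl (r + 1) (insert v D) \ Cl (r + 1) D).card =
      (r + 1) * D.card.descFactorial r * 2 ^ (r + 1) := by
  rw [card_sdiff_of_subset (Cl_mono (subset_insert v D)), card_Cl, card_Cl,
    card_insert_of_notMem hv, Nat.succ_descFactorial_succ, Nat.descFactorial_succ, ← Nat.sub_mul,
    ← Nat.sub_mul]
  congr 1
  rcases lt_or_ge D.card r with h | h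
  · rw [Nat.descFactorial_of_lt h]; simp
  · congr 1; omega

theorem Clv_nonempty {r : ℕ} {D : Finset (Fin n)} {v : Fin n} (hv : v ∉ D) (h : r ≤ D.card) :
    (Cl (r + 1) (insert v D) \ Cl (r + 1) D).Nonempty := by
  rw [← card_pos, card_Cl_sdiff hv]
  exact mul_pos (mul_pos (by omega) (Nat.descFactorial_pos.2 h)) (by positivity)

theorem Clv_ratio {r : ℕ} {D : Finset (Fin n)} {v : Fin n} (hv : v ∉ D) (h : r ≤ D.card) :
    ((Cl (r + 1) (insert v D) \ Cl (r + 1) D).card / (Cl (r + 1) (insert v D)).card : ℝ) =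
      (r + 1) / (D.card + 1) := by
  rw [card_Cl_sdiff hv, card_Cl, card_insert_of_notMem hv, Nat.succ_descFactorial_succ]
  have : (0 : ℝ) < D.card.descFactorial r := by exact_mod_cast Nat.descFactorial_pos.2 h
  push_cast
  field_simp

theorem desc_ratio_le {d u r : ℕ} (hu : 2 * r ≤ u) (h0 : 0 < u) :
    (d.descFactorial r : ℝ) / u.descFactorial r ≤ (2 * d / u) ^ r := by
  have h1 : (d.descFactorial r : ℝ) ≤ (d : ℝ) ^ r := by exact_mod_cast Nat.descFactorial_le_pow d r
  have h2 : ((u + 1 - r : ℕ) : ℝ) ^ r ≤ u.descFactorial r := by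
    exact_mod_cast Nat.pow_sub_le_descFactorial u r
  have h3 : (u : ℝ) / 2 ≤ ((u + 1 - r : ℕ) : ℝ) := by
    rw [Nat.cast_sub (by omega), div_le_iff₀ two_pos]
    have : (2 * r : ℝ) ≤ u := by exact_mod_cast hu
    push_cast; linarith
  have h4 : (0 : ℝ) < u := by exact_mod_cast h0
  have h5 : ((u : ℝ) / 2) ^ r ≤ u.descFactorial r := (pow_le_pow_left₀ (by positivity) h3 r).trans h2
  calc _ ≤ (d : ℝ) ^ r / ((u : ℝ) / 2) ^ r := div_le_div₀ (by positivity) h1 (by positivity) h5
    _ = _ := by rw [← div_pow]; congr 1; field_simp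

theorem kap_vi_le {U : Finset (Fin n)} (hU : 2 * k ≤ U.card) (h0 : 0 < U.card)
    (E : (Fin n → Bool) → ℤ) :
    kap (unif (Cl k U)) vi E ≤ (2 * (dead E U).card / U.card) ^ k := by
  classical
  unfold kap
  rw [Ex_unif_I]
  refine le_trans ?_ (desc_ratio_le hU h0)
  have h1 : (Cl k U).filter (fun c => ¬ Alive fun σ => E σ + vi c σ) ⊆ Cl k (dead E U) := by
    intro c hc
    rw [mem_filter] at hc
    exact mem_Cl.2 fun i => mem_dead.2 ⟨mem_Cl.1 hc.1 i, c.2 i, fun h =>
      hc.2 (h.mono fun σ => by linarith [vi_le_lit c i σ])⟩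
  have h2 := card_le_card h1
  rw [card_Cl] at h2
  have h3 : (0 : ℝ) < U.card.descFactorial k := by
    exact_mod_cast Nat.descFactorial_pos.2 (by omega : k ≤ U.card)
  rw [card_Cl, div_le_div_iff₀ (by push_cast; positivity) h3]
  have h4 : (((Cl k U).filter (fun c => ¬ Alive fun σ => E σ + vi c σ)).card : ℝ) ≤
      (dead E U).card.descFactorial k * 2 ^ k := by exact_mod_cast h2
  push_cast
  nlinarith

theorem kap_vx_le {r : ℕ} {U : Finset (Fin n)} {v : Fin n} (hv : v ∉ U) (hU : 2 * r ≤ U.card)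
    (h0 : 0 < U.card) (E : (Fin n → Bool) → ℤ) :
    kap (unif (Cl (r + 1) (insert v U) \ Cl (r + 1) U)) (vx v) E ≤
      (2 * (dead E U).card / U.card) ^ r := by
  classical
  unfold kap
  rw [Ex_unif_I]
  refine le_trans ?_ (desc_ratio_le hU h0)
  have h1 : (Cl (r + 1) (insert v U) \ Cl (r + 1) U).filter
      (fun c => ¬ Alive fun σ => E σ + vx v c σ) ⊆
      Cl (r + 1) (insert v (dead E U)) \ Cl (r + 1) (dead E U) := by
    intro c hc
    rw [mem_filter, mem_sdiff] at hc
    refine mem_sdiff.2 ⟨mem_Cl.2 fun i => ?_, fun h => hc.1.2 (Cl_mono (dead_subset E U) h)⟩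
    by_cases hi : c.1.1 i = v
    · rw [hi]; exact mem_insert_self _ _
    · refine mem_insert_of_mem (mem_dead.2 ⟨?_, c.2 i, fun h =>
        hc.2 (h.mono fun σ => by linarith [vx_le_lit hi σ])⟩)
      exact (mem_insert.1 (mem_Cl.1 hc.1.1 i)).resolve_left hi
  have h2 := card_le_card h1
  rw [card_Cl_sdiff (fun h => hv (dead_subset E U h))] at h2
  have h3 : (0 : ℝ) < U.card.descFactorial r := by
    exact_mod_cast Nat.descFactorial_pos.2 (by omega : r ≤ U.card)
  rw [card_Cl_sdiff hv, div_le_div_iff₀ (by push_cast; positivity) h3]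
  have h4 : (((Cl (r + 1) (insert v U) \ Cl (r + 1) U).filter
      (fun c => ¬ Alive fun σ => E σ + vx v c σ)).card : ℝ) ≤
      (r + 1) * (dead E U).card.descFactorial r * 2 ^ (r + 1) := by exact_mod_cast h2
  push_cast
  nlinarith

theorem le_kap_vi (hk : 1 ≤ k) {U : Finset (Fin n)} (E : (Fin n → Bool) → ℤ) {δ : ℝ} (hδ : 0 ≤ δ)
    (h1 : 2 * k ≤ (dead E U).card) (h2 : δ * U.card ≤ (dead E U).card) :
    (δ / 4) ^ k ≤ kap (unif (Cl k U)) vi E := by
  classical
  unfold kap
  rw [Ex_unif_I]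
  have hDU := card_le_card (dead_subset E U)
  obtain ⟨sg, hsg⟩ : ∃ sg : Fin n → Bool, ∀ u, Dead E u → ¬ Alive fun σ => E σ + lit u (sg u) σ := by
    refine ⟨fun u => if h : Dead E u then h.choose else true, fun u hu => ?_⟩
    simp only [dif_pos hu]
    exact hu.choose_spec
  have h3 : (Inj k (dead E U)).card ≤
      ((Cl k U).filter (fun c => ¬ Alive fun σ => E σ + vi c σ)).card := by
    refine card_le_card_of_injOn (fun f => (f, fun i => sg (f.1 i))) (fun f hf => ?_)
      (fun f _ g _ h => congrArg Prod.fst h)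
    have hf' : ∀ i, f.1 i ∈ dead E U := by simpa [Inj] using hf
    rw [coe_filter]
    refine ⟨mem_Cl.2 fun i => dead_subset E U (hf' i), ?_⟩
    rintro ⟨σ, hσ⟩
    by_cases h : ∃ i, σ (f.1 i) = sg (f.1 i)
    · obtain ⟨i, hi⟩ := h
      refine hsg _ (mem_dead.1 (hf' i)).2 ⟨σ, ?_⟩
      have := vi_nonneg ((f, fun i => sg (f.1 i)) : Clause k n) σ
      simp only [lit, if_pos hi]
      simp only at hσ
      linarith
    · refine hsg _ (mem_dead.1 (hf' ⟨0, hk⟩)).2 ⟨σ, ?_⟩
      simp only [vi, if_neg h] at hσ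
      simp only [lit]
      split_ifs <;> linarith
  rw [card_Inj] at h3
  have h4 := (Nat.pow_sub_le_descFactorial (dead E U).card k).trans h3
  have h5 : (((dead E U).card + 1 - k : ℕ) : ℝ) ^ k ≤
      ((Cl k U).filter (fun c => ¬ Alive fun σ => E σ + vi c σ)).card := by exact_mod_cast h4
  have h6 : δ * U.card / 2 ≤ (((dead E U).card + 1 - k : ℕ) : ℝ) := by
    rw [Nat.cast_sub (by omega)]
    have : (2 * k : ℝ) ≤ (dead E U).card := by exact_mod_cast h1
    push_cast; linarith
  have h7 : ((Cl k U).card : ℝ) ≤ (U.card : ℝ) ^ k * 2 ^ k := by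
    rw [card_Cl]
    exact_mod_cast Nat.mul_le_mul_right _ (Nat.descFactorial_le_pow _ _)
  have h8 : (0 : ℝ) < (Cl k U).card := by
    exact_mod_cast (Cl_nonempty (by omega : k ≤ U.card)).card_pos
  rw [le_div_iff₀ h8]
  calc (δ / 4) ^ k * ((Cl k U).card : ℝ) ≤ (δ / 4) ^ k * ((U.card : ℝ) ^ k * 2 ^ k) :=
        mul_le_mul_of_nonneg_left h7 (by positivity)
    _ = (δ * U.card / 2) ^ k := by rw [← mul_pow, ← mul_pow]; congr 1; ring
    _ ≤ _ := (pow_le_pow_left₀ (by positivity) h6 k).trans h5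

end Crest.Agent.R153
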