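import Mathlib
import Crest.Prelude.Def_RandomSAT
import Crest.Prelude.Def_DilutedSpinGlass

/-! Shared definitions for row 153 (random `k`-SAT). -/

set_option autoImplicit false
open MeasureTheory Crest.ProbabilityR.RandomSAT Crest.ProbabilityR.Diluted

namespace Crest.Agent.R153

open Classical in
/-- the number of clauses of `F` violated by `σ` -/
noncomputable def nViol {k n m : ℕ} (F : Fin m → Clause k n) (σ : Fin n → Bool) : ℕ :=
  (Finset.univ.filter fun j => ¬ ClauseSat σ (F j)).card

/-- the least number of violated clauses -/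
noncomputable def minViol {k n m : ℕ} (F : Fin m → Clause k n) : ℕ := ⨅ σ, nViol F σ

theorem minViol_le {k n m : ℕ} (F : Fin m → Clause k n) (σ : Fin n → Bool) :
    minViol F ≤ nViol F σ := ciInf_le (OrderBot.bddBelow _) σ

theorem exists_minViol {k n m : ℕ} (F : Fin m → Clause k n) : ∃ σ, nViol F σ = minViol F :=
  ciInf_mem (nViol F)

/-- the mean of the least number of violated clauses among `m` uniform clauses -/
noncomputable def xm (k n m : ℕ) : ℝ :=
  (Fintype.card (Fin m → Clause k n) : ℝ)⁻¹ * ∑ F : Fin m → Clause k n, (minViol F : ℝ)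

/-- the interaction of a 3-clause violated exactly by the spin tuple `s` -/
noncomputable def satInter (β : ℝ) (s : Fin 3 → Bool) : Inter 3 := fun t => if t = s then -β else 0

/-- the interaction law of random 3-SAT at inverse temperature `β` -/
noncomputable def satLaw (β : ℝ) : Measure (Inter 3) :=
  (8 : ENNReal)⁻¹ • ∑ s : Fin 3 → Bool, Measure.dirac (satInter β s)

instance (β : ℝ) : IsProbabilityMeasure (satLaw β) := ⟨by
  have h8 : (8 : ENNReal)⁻¹ * 8 = 1 := ENNReal.inv_mul_cancel (by norm_num) (by norm_num)
  simpa [satLaw] using h8⟩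

/-- the pressure of random 3-SAT -/
noncomputable abbrev satPressure (a β : ℝ) (N : ℕ) : ℝ :=
  pressure 3 a (satLaw β) (Measure.dirac 0) N

/-- the cavity functional of random 3-SAT -/
noncomputable abbrev satTrial (a β : ℝ) (r : ℕ) (m : Fin r → ℝ)
    (X : (Fin (r + 1) → unitInterval) → ℝ) : ℝ :=
  trialFunctional 3 a (satLaw β) (Measure.dirac 0) r m X

end Crest.Agent.R153
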