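import Crest.Agent.R153.Comp

/-! Row 153: the assembly of the computability proof from the facts about the pressure. -/

set_option autoImplicit false
open MeasureTheory Filter Topology Crest.ProbabilityR.RandomSAT Crest.ProbabilityR.Diluted
open Crest.Agent.PrimrecRat

namespace Crest.Agent.R153

theorem tendsto_err (a b : ℝ) (ha : 0 ≤ a) :
    Tendsto (fun N : ℕ => (b + √(a * N)) / N) atTop (𝓝 0) := by
  have h1 : Tendsto (fun N : ℕ => b / (N : ℝ)) atTop (𝓝 0) := tendsto_const_div_atTop_nhds_zero_nat b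
  have h2 : Tendsto (fun N : ℕ => √(a / (N : ℝ))) atTop (𝓝 0) := by
    have := (tendsto_const_div_atTop_nhds_zero_nat a).sqrt
    simpa using this
  have h3 := h1.add h2
  rw [add_zero] at h3
  refine h3.congr' ?_
  filter_upwards [eventually_gt_atTop 0] with N hN
  have hN' : (0 : ℝ) < N := by exact_mod_cast hN
  have : √(a / (N : ℝ)) = √(a * N) / N := by
    rw [show a / (N : ℝ) = a * N / (N : ℝ) ^ 2 by field_simp, Real.sqrt_div' _ (by positivity),
      Real.sqrt_sq hN'.le]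
  rw [this, add_div]

theorem satProb_zero (n : ℕ) : satProb 3 n 0 = 1 := by
  classical
  have : {F : Fin 0 → Clause 3 n | Satisfiable F} = Set.univ :=
    Set.eq_univ_of_forall fun F => ⟨fun _ => true, fun j => j.elim0⟩
  rw [satProb, this, Crest.FinProb.uniformProb]
  simp

theorem satProb_le_one (n m : ℕ) : satProb 3 n m ≤ 1 := by
  classical
  rw [satProb, Crest.FinProb.uniformProb]
  refine div_le_one_of_le₀ ?_ (Nat.cast_nonneg _)
  exact_mod_cast Finset.card_le_univ _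

theorem threshold_nonneg {α : ℝ} (hα : IsSharpThreshold (satProb 3) α) : 0 ≤ α := by
  by_contra h
  have h1 := (hα 0 le_rfl).2 (not_le.1 h)
  simp only [zero_mul, Nat.floor_zero, satProb_zero] at h1
  exact one_ne_zero (tendsto_nhds_unique tendsto_const_nhds h1)

/-- below the threshold the fixed-size error is `o(N)` -/
theorem tendsto_below {α : ℝ} (hα : IsSharpThreshold (satProb 3) α) {a : ℝ} (ha : 0 ≤ a)
    (h : a < α) (b : ℝ) :
    Tendsto (fun N : ℕ => ((⌊a * N⌋₊ : ℝ) * (1 - satProb 3 N ⌊a * N⌋₊) + b + √(a * N)) / N) atTop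
      (𝓝 0) := by
  have h1 := (hα a ha).1 h
  have h2 : Tendsto (fun N : ℕ => a * (1 - satProb 3 N ⌊a * N⌋₊)) atTop (𝓝 (a * (1 - 1))) :=
    (tendsto_const_nhds.sub h1).const_mul a
  rw [sub_self, mul_zero] at h2
  have h3 : Tendsto (fun N : ℕ => (⌊a * N⌋₊ : ℝ) * (1 - satProb 3 N ⌊a * N⌋₊) / N) atTop (𝓝 0) := by
    refine squeeze_zero' (Eventually.of_forall fun N => ?_) ?_ h2
    · exact div_nonneg (mul_nonneg (Nat.cast_nonneg _) (sub_nonneg.2 (satProb_le_one _ _)))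
        (Nat.cast_nonneg _)
    · filter_upwards [eventually_gt_atTop 0] with N hN
      have hN' : (0 : ℝ) < N := by exact_mod_cast hN
      rw [div_le_iff₀ hN']
      have h4 : (⌊a * N⌋₊ : ℝ) ≤ a * N := Nat.floor_le (by positivity)
      have h5 := sub_nonneg.2 (satProb_le_one N ⌊a * N⌋₊)
      nlinarith
  have h4 := h3.add (tendsto_err a b ha)
  rw [add_zero] at h4
  refine h4.congr fun N => ?_
  ring

/-- the lower test -/
def LowT (q : ℕ × ℕ → ℚ) (c : ℚ) (x : ℚ × ℕ) : Prop :=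
  3 ≤ x.2.unpair.1.unpair.1 ∧
  (x.2.unpair.2.unpair.1 : ℚ) ≤ (x.1 + 1 / ((x.2.unpair.1.unpair.2 : ℚ) + 1)) * x.2.unpair.1.unpair.1 ∧
  (x.1 + 1 / ((x.2.unpair.1.unpair.2 : ℚ) + 1)) * x.2.unpair.1.unpair.1 < x.2.unpair.2.unpair.1 + 1 ∧
  (x.1 + 1 / ((x.2.unpair.1.unpair.2 : ℚ) + 1)) * x.2.unpair.1.unpair.1 ≤
    (x.2.unpair.2.unpair.2 : ℚ) ^ 2 ∧
  (x.2.unpair.2.unpair.1 : ℚ) * (1 - q (x.2.unpair.1.unpair.1, x.2.unpair.2.unpair.1)) + 1 +
      x.2.unpair.2.unpair.2 + 3 * (x.1 + 1 / ((x.2.unpair.1.unpair.2 : ℚ) + 1)) <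
    c * (1 / ((x.2.unpair.1.unpair.2 : ℚ) + 1)) ^ 2 * x.2.unpair.1.unpair.1

theorem pp_lowT {q : ℕ × ℕ → ℚ} (hq : Primrec q) (c : ℚ) : PrimrecPred (LowT q c) := by
  unfold LowT
  fun_prop

theorem lowT_iff (q : ℕ × ℕ → ℚ) (c a : ℚ) (N i m s : ℕ) :
    LowT q c (a, Nat.pair (Nat.pair N i) (Nat.pair m s)) ↔ 3 ≤ N ∧
      (m : ℝ) ≤ (a + 1 / ((i : ℝ) + 1)) * N ∧ (a + 1 / ((i : ℝ) + 1)) * N < m + 1 ∧
      (a + 1 / ((i : ℝ) + 1)) * N ≤ (s : ℝ) ^ 2 ∧
      (m : ℝ) * (1 - q (N, m)) + 1 + s + 3 * (a + 1 / ((i : ℝ) + 1)) <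
        c * (1 / ((i : ℝ) + 1)) ^ 2 * N := by
  simp only [LowT, Nat.unpair_pair]
  refine and_congr Iff.rfl (and_congr ?_ (and_congr ?_ (and_congr ?_ ?_)))
  · rw [← Rat.cast_le (K := ℝ)]; push_cast; rfl
  · rw [← Rat.cast_lt (K := ℝ)]; push_cast; rfl
  · rw [← Rat.cast_le (K := ℝ)]; push_cast; rfl
  · rw [← Rat.cast_lt (K := ℝ)]; push_cast; rfl

theorem admissible_grid {T a₀ r : ℕ} (h : a₀ + r + 1 = T) :
    AdmissibleExponents (fun d : Fin r => ((a₀ + d + 1 : ℕ) : ℝ) / T) := by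
  have hT : (0 : ℝ) < T := by exact_mod_cast (by omega : 0 < T)
  refine ⟨fun d e hde => ?_, fun d => ⟨by positivity, ?_⟩⟩
  · refine div_lt_div_of_pos_right ?_ hT
    have : (d : ℕ) < e := hde
    exact_mod_cast (by omega : a₀ + d + 1 < a₀ + e + 1)
  · rw [div_lt_one hT]
    have := d.2
    exact_mod_cast (by omega : a₀ + d + 1 < T)

theorem final_of
    (xm_mono : ∀ k n : ℕ, k ≤ n → Monotone (xm k n))
    (xm_le : ∀ k n m : ℕ, k ≤ n → xm k n m ≤ m * (1 - satProb k n m))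
    (le_satPressure : ∀ a β : ℝ, 0 ≤ a → 0 ≤ β → ∀ N : ℕ, 3 ≤ N →
      -β * (xm 3 N ⌊a * N⌋₊ + 1 + √(a * N) + 3 * a) / N ≤ satPressure a β N)
    (satPressure_le : ∀ a β : ℝ, 0 ≤ a → 0 ≤ β → ∀ N : ℕ, 3 ≤ N →
      satPressure a β N ≤ Real.log 2 - β * (xm 3 N ⌊a * N⌋₊ - 1 - √(a * N) - 3 * a) / N)
    (upper_re : ∃ (β : ℕ → ℝ) (U : ℚ × ℕ → Prop), (∀ b, 0 ≤ β b) ∧ Tendsto β atTop atTop ∧
      ComputablePred U ∧ ∀ a : ℚ, 0 < a →
        (∀ t, U (a, t) → ∃ (b r : ℕ) (m : Fin r → ℝ) (X : (Fin (r + 1) → unitInterval) → ℝ),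
          AdmissibleExponents m ∧ Measurable X ∧ satTrial a (β b) r m X < 0) ∧
        (∀ (b T a₀ r : ℕ) (X : (Fin (r + 1) → unitInterval) → ℝ), a₀ + r + 1 = T → Measurable X →
          satTrial a (β b) r (fun d => ((a₀ + d + 1 : ℕ) : ℝ) / T) X < 0 → ∃ t, U (a, t)))
    (α : ℝ) (hα : IsSharpThreshold (satProb 3) α)
    (hgap : ∃ c : ℝ, 0 < c ∧ ∀ η : ℝ, 0 < η → η ≤ 1 →
      ∀ᶠ n : ℕ in atTop, c * η ^ 2 * n ≤ xm 3 n ⌊(α + η) * n⌋₊)
    (hup : ∀ a β : ℝ, 0 < a → 0 ≤ β → ∀ (r : ℕ) (m : Fin r → ℝ) (X : (Fin (r + 1) → unitInterval) → ℝ),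
      AdmissibleExponents m → Measurable X → ∀ N : ℕ, 1 ≤ N → satPressure a β N ≤ satTrial a β r m X)
    (hlow : ∀ a β : ℝ, 0 < a → 0 ≤ β → ∀ c : ℝ,
      (∀ T a₀ r : ℕ, a₀ + r + 1 = T → ∀ X : (Fin (r + 1) → unitInterval) → ℝ, Measurable X →
        c ≤ satTrial a β r (fun d => ((a₀ + d + 1 : ℕ) : ℝ) / T) X) →
      ∀ ε : ℝ, 0 < ε → ∀ᶠ N : ℕ in atTop, c - ε ≤ satPressure a β N) :
    ∃ f : ℕ → ℕ, Computable f ∧ ∀ r : ℕ, |(f r : ℝ) / 2 ^ r - α| ≤ 1 / 2 ^ r := by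
  obtain ⟨c, hc, hgap⟩ := hgap
  obtain ⟨B, U, hB0, hB, hU, hUU⟩ := upper_re
  obtain ⟨q, hq, hq'⟩ := satProb_primrec
  obtain ⟨c', hc0, hc1⟩ := exists_rat_btwn hc
  have h0 := threshold_nonneg hα
  -- the pressure above the threshold
  have above : ∀ a β η : ℝ, 0 ≤ a → 0 ≤ β → 0 < η → η ≤ 1 → α + η ≤ a → ∀ ε : ℝ, 0 < ε →
      ∀ᶠ N : ℕ in atTop, satPressure a β N ≤ Real.log 2 - β * (c * η ^ 2) + ε := by
    intro a β η ha hβ hη hη1 hle ε hε
    have h1 := (tendsto_err a (1 + 3 * a) ha).const_mul β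
    rw [mul_zero] at h1
    filter_upwards [hgap η hη hη1, eventually_ge_atTop 3, h1.eventually (gt_mem_nhds hε)]
      with N h2 h3 h4
    have hN : (0 : ℝ) < N := by exact_mod_cast (by omega : 0 < N)
    have h5 : xm 3 N ⌊(α + η) * N⌋₊ ≤ xm 3 N ⌊a * N⌋₊ :=
      xm_mono 3 N h3 (Nat.floor_mono (mul_le_mul_of_nonneg_right hle hN.le))
    refine (satPressure_le a β ha hβ N h3).trans ?_
    have h6 : β * (c * η ^ 2) ≤ β * xm 3 N ⌊a * N⌋₊ / N := by
      rw [le_div_iff₀ hN, mul_assoc]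
      exact mul_le_mul_of_nonneg_left (h2.trans h5) hβ
    have h7 : β * (xm 3 N ⌊a * N⌋₊ - 1 - √(a * N) - 3 * a) / N =
        β * xm 3 N ⌊a * N⌋₊ / N - β * ((1 + 3 * a + √(a * N)) / N) := by ring
    linarith
  refine computable_of_semi α h0 (LowT q c') U (pp_lowT hq c').computablePred hU ?_ ?_ ?_ ?_
  · -- soundness of the lower test
    intro a t ha hL
    by_contra hlt
    rw [not_le] at hlt
    rw [← Nat.pair_unpair t, ← Nat.pair_unpair t.unpair.1, ← Nat.pair_unpair t.unpair.2,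
      lowT_iff] at hL
    generalize t.unpair.1.unpair.1 = N at hL
    generalize t.unpair.1.unpair.2 = i at hL
    generalize t.unpair.2.unpair.1 = m at hL
    generalize t.unpair.2.unpair.2 = s at hL
    obtain ⟨h3, hm1, hm2, hs, hL⟩ := hL
    have hη : (0 : ℝ) < 1 / ((i : ℝ) + 1) := by positivity
    have hη1 : 1 / ((i : ℝ) + 1) ≤ 1 := by
      rw [div_le_one (by positivity)]; linarith [Nat.cast_nonneg (α := ℝ) i]
    generalize 1 / ((i : ℝ) + 1) = η at hη hη1 hm1 hm2 hs hL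
    have ha' : (0 : ℝ) < a := by exact_mod_cast ha
    have hA : (0 : ℝ) < a + η := by linarith
    have hN : (0 : ℝ) < N := by exact_mod_cast (by omega : 0 < N)
    have hfl : ⌊(a + η) * N⌋₊ = m := (Nat.floor_eq_iff (by positivity)).2 ⟨hm1, hm2⟩
    have hsq : √((a + η) * N) ≤ s := Real.sqrt_le_iff.2 ⟨Nat.cast_nonneg _, hs⟩
    have hx := xm_le 3 N m h3
    rw [hq'] at hx
    set E := (xm 3 N m + 1 + √((a + η) * N) + 3 * (a + η)) / N with hE
    have hγ : E < c * η ^ 2 := by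
      rw [hE, div_lt_iff₀ hN]
      have : (c' : ℝ) * η ^ 2 * N ≤ c * η ^ 2 * N := by gcongr
      linarith
    set β := (Real.log 2 + 1) / (c * η ^ 2 - E) with hβ
    have hl2 : 0 < Real.log 2 := Real.log_pos (by norm_num)
    have hβ0 : 0 ≤ β := div_nonneg (by linarith) (by linarith)
    have hβ1 : β * (c * η ^ 2 - E) = Real.log 2 + 1 := div_mul_cancel₀ _ (by linarith)
    have e1 := hlow (a + η) β hA hβ0 (satPressure (a + η) β N)
      (fun T a₀ r h X hX => hup _ _ hA hβ0 r _ X (admissible_grid h) hX N (by omega))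
      (1 / 4) (by norm_num)
    have e2 := above (a + η) β η hA.le hβ0 hη hη1 (by linarith) (1 / 4) (by norm_num)
    obtain ⟨N', h1, h2⟩ := (e1.and e2).exists
    have h4 := le_satPressure (a + η) β hA.le hβ0 N h3
    rw [hfl, mul_div_assoc, ← hE] at h4
    nlinarith
  · -- completeness of the lower test
    intro a ha hlt
    obtain ⟨i, hi⟩ := exists_nat_one_div_lt (sub_pos.2 hlt)
    have hη : (0 : ℝ) < 1 / ((i : ℝ) + 1) := by positivity
    have ha' : (0 : ℝ) < a := by exact_mod_cast ha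
    have hA : (0 : ℝ) < a + 1 / ((i : ℝ) + 1) := by linarith
    have h1 := tendsto_below hα hA.le (by linarith) (2 + 3 * (a + 1 / ((i : ℝ) + 1)))
    have hp : (0 : ℝ) < c' * (1 / ((i : ℝ) + 1)) ^ 2 := by positivity
    obtain ⟨N, h2, h3⟩ := ((h1.eventually (gt_mem_nhds hp)).and (eventually_ge_atTop 3)).exists
    have hN : (0 : ℝ) < N := by exact_mod_cast (by omega : 0 < N)
    refine ⟨Nat.pair (Nat.pair N i) (Nat.pair ⌊(a + 1 / ((i : ℝ) + 1)) * N⌋₊
      ⌈√((a + 1 / ((i : ℝ) + 1)) * N)⌉₊), (lowT_iff _ _ _ _ _ _ _).2 ⟨h3, ?_, ?_, ?_, ?_⟩⟩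
    · exact Nat.floor_le (by positivity)
    · exact Nat.lt_floor_add_one _
    · exact (Real.sqrt_le_iff.1 (Nat.le_ceil _)).2
    · rw [div_lt_iff₀ hN, hq'] at h2
      have := (Nat.ceil_lt_add_one (Real.sqrt_nonneg ((a + 1 / ((i : ℝ) + 1)) * N))).le
      linarith
  · -- soundness of the upper test
    intro a t ha hU'
    by_contra hlt
    rw [not_le] at hlt
    have ha' : (0 : ℝ) < a := by exact_mod_cast ha
    obtain ⟨b, r, m, X, hm, hX, hneg⟩ := (hUU a ha).1 t hU'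
    have h1 := (tendsto_below hα ha'.le hlt (1 + 3 * a)).const_mul (B b)
    rw [mul_zero] at h1
    obtain ⟨N, h2, h3⟩ := ((h1.eventually (gt_mem_nhds (neg_pos.2 hneg))).and
      (eventually_ge_atTop 3)).exists
    have hN : (0 : ℝ) < N := by exact_mod_cast (by omega : 0 < N)
    have h4 := hup a (B b) ha' (hB0 b) r m X hm hX N (by omega)
    have h5 := le_satPressure a (B b) ha'.le (hB0 b) N h3
    have h6 := xm_le 3 N ⌊(a : ℝ) * N⌋₊ h3
    have h7 : B b * ((xm 3 N ⌊(a : ℝ) * N⌋₊ + 1 + √(a * N) + 3 * a) / N) ≤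
        B b * (((⌊(a : ℝ) * N⌋₊ : ℝ) * (1 - satProb 3 N ⌊(a : ℝ) * N⌋₊) + (1 + 3 * a) +
          √(a * N)) / N) := by
      refine mul_le_mul_of_nonneg_left (div_le_div_of_nonneg_right (by linarith) hN.le) (hB0 b)
    rw [mul_div_assoc, neg_mul] at h5
    linarith
  · -- completeness of the upper test
    intro a ha hlt
    by_contra hne
    have ha' : (0 : ℝ) < a := by exact_mod_cast ha
    set η := min 1 ((a : ℝ) - α) with hη
    have hη0 : 0 < η := lt_min one_pos (by linarith)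
    have hη2 : η ≤ a - α := min_le_right _ _
    have hp : 0 < c * η ^ 2 := by positivity
    obtain ⟨b, hb⟩ := (hB.eventually (eventually_ge_atTop ((Real.log 2 + 1) / (c * η ^ 2)))).exists
    rw [div_le_iff₀ hp] at hb
    have e1 := hlow a (B b) ha' (hB0 b) 0 (fun T a₀ r h X hX => by
      by_contra hh
      exact hne ((hUU a ha).2 b T a₀ r X h hX (not_le.1 hh))) (1 / 4) (by norm_num)
    have e2 := above a (B b) η ha'.le (hB0 b) hη0 (min_le_left _ _) (by linarith) (1 / 4)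
      (by norm_num)
    obtain ⟨N', h1, h2⟩ := (e1.and e2).exists
    linarith

end Crest.Agent.R153
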