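import Crest.Agent.R153.Var
import Crest.Agent.R153.Defs

/-! Above the threshold a positive fraction of the clauses is violated, quantitatively. -/

set_option autoImplicit false
open Finset Function Filter Crest.ProbabilityR.RandomSAT

namespace Crest.Agent.R153
open Crest.Agent.R16

variable {k n : ℕ}

/-- the first time at which more than `j` clauses must be violated -/
noncomputable def TL {M : ℕ} (j : ℕ) (ω : Fin M → Clause k n) : ℕ :=
  Tm vi (fun _ => -(j : ℤ)) (fun _ => false) ω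

theorem TL_le_succ {M : ℕ} (j : ℕ) (ω : Fin M → Clause k n) : TL j ω ≤ TL (j + 1) ω :=
  Tm_anti vi_nonneg (fun _ => by push_cast; omega) fun _ h => h

theorem level_sq {M : ℕ} (j : ℕ) (ω : Fin M → Clause k n) :
    ((j : ℝ) + 1) * ((TL (j + 1) ω : ℝ) - TL j ω) ^ 2 ≤
      ∑ i, ((TL j ω : ℝ) - Tm vi (fun _ => -(j : ℤ)) (fun i' => decide (i' = i)) ω) ^ 2 := by
  rcases (TL_le_succ j ω).eq_or_lt with h | h
  · rw [h, sub_self, zero_pow two_ne_zero, mul_zero]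
    exact sum_nonneg fun _ _ => sq_nonneg _
  obtain ⟨s, hs⟩ : ∃ s, TL (j + 1) ω = s + 1 := ⟨TL (j + 1) ω - 1, by omega⟩
  have h1 : s < TL (j + 1) ω := by omega
  obtain ⟨hsM, σ, hσ⟩ := (lt_Tm_iff vi_nonneg s).1 h1
  have h2 : ¬ s < TL j ω := by omega
  have h3 : ¬ En vi (fun _ => -(j : ℤ)) (fun _ => false) ω s σ ≤ 0 := fun h3 =>
    h2 ((lt_Tm_iff vi_nonneg s).2 ⟨hsM, σ, h3⟩)
  unfold En at hσ h3
  simp only [and_true] at hσ h3
  obtain ⟨A, hA⟩ : ∃ A : Finset (Fin M), A = univ.filter fun i => i.val < s ∧ vi (ω i) σ = 1 :=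
    ⟨_, rfl⟩
  have h4 : ∑ i : Fin M, (if i.val < s then vi (ω i) σ else 0) = A.card := by
    rw [hA, card_filter, Nat.cast_sum]
    refine sum_congr rfl fun i _ => ?_
    have a1 := vi_nonneg (ω i) σ
    have a2 := vi_le_one (ω i) σ
    by_cases a3 : i.val < s <;> by_cases a4 : vi (ω i) σ = 1 <;> simp [a3, a4]
    omega
  have h5 : A.card = j + 1 := by
    rw [h4] at hσ h3
    push_cast at hσ
    omega
  have h6 : ∀ i ∈ A, ((TL (j + 1) ω : ℝ) - TL j ω) ^ 2 ≤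
      ((TL j ω : ℝ) - Tm vi (fun _ => -(j : ℤ)) (fun i' => decide (i' = i)) ω) ^ 2 := by
    intro i hi
    rw [hA, mem_filter] at hi
    have h7 : s < Tm vi (fun _ => -(j : ℤ)) (fun i' => decide (i' = i)) ω := by
      refine (lt_Tm_iff vi_nonneg s).2 ⟨hsM, σ, ?_⟩
      unfold En
      rw [← add_sum_erase _ _ (mem_univ i), if_pos hi.2.1, hi.2.2, h5] at h4
      rw [← add_sum_erase _ _ (mem_univ i), if_neg (by simp)]
      have h8 : ∑ x ∈ univ.erase i, (if x.val < s ∧ decide (x = i) = false then vi (ω x) σ else 0) =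
          ∑ x ∈ univ.erase i, if x.val < s then vi (ω x) σ else 0 :=
        sum_congr rfl fun x hx => by simp [ne_of_mem_erase hx]
      rw [h8]
      push_cast at h4
      beta_reduce
      omega
    have h8 : (TL (j + 1) ω : ℝ) ≤ Tm vi (fun _ => -(j : ℤ)) (fun i' => decide (i' = i)) ω := by
      exact_mod_cast (by omega : TL (j + 1) ω ≤ _)
    have h9 : (TL j ω : ℝ) ≤ TL (j + 1) ω := by exact_mod_cast h.le
    nlinarith
  have h7 := card_nsmul_le_sum A _ _ h6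
  rw [h5, nsmul_eq_mul] at h7
  push_cast at h7
  exact h7.trans (sum_le_sum_of_subset_of_nonneg (subset_univ A) fun _ _ _ => sq_nonneg _)

theorem sum_inv_sqrt (J : ℕ) : ∑ j ∈ range J, (√((j : ℝ) + 1))⁻¹ ≤ 2 * √J := by
  induction J with
  | zero => simp
  | succ J ih =>
    rw [sum_range_succ]
    push_cast
    have h1 : 0 < √((J : ℝ) + 1) := Real.sqrt_pos.2 (by positivity)
    have h2 := Real.mul_self_sqrt (show (0 : ℝ) ≤ J + 1 by positivity)
    have h3 := Real.mul_self_sqrt (show (0 : ℝ) ≤ J by positivity)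
    have h4 : (√((J : ℝ) + 1))⁻¹ ≤ 2 * √((J : ℝ) + 1) - 2 * √J := by
      rw [inv_le_iff_one_le_mul₀ h1]
      nlinarith [sq_nonneg (√((J : ℝ) + 1) - √J)]
    linarith

theorem Ex_TL_sub (hk : 3 ≤ k) (C₀ : ℝ) : ∃ K : ℝ, 0 ≤ K ∧ ∀ n M : ℕ, k ≤ n →
    (M : ℝ) + 1 ≤ C₀ * n → ∀ J : ℕ,
    Ex (PW k M (univ : Finset (Fin n))) (fun ω => (TL J ω : ℝ) - TL 0 ω) ≤ 2 * √(M * K * J) := by
  obtain ⟨K, hK, h⟩ := delay_sq hk C₀
  refine ⟨K, hK, fun n M hn hM J => ?_⟩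
  have hP := isProb_PW (k := k) M (U := (univ : Finset (Fin n))) (by simpa using hn)
  have h1 : ∀ j : ℕ, Ex (PW k M (univ : Finset (Fin n)))
      (fun ω => (TL (j + 1) ω : ℝ) - TL j ω) ≤ √(M * K) * (√((j : ℝ) + 1))⁻¹ := by
    intro j
    have h2 := hP.Ex_mono (level_sq j)
    rw [Ex_const_mul, Ex_sum] at h2
    have h3 := sum_le_card_nsmul univ _ _ fun i _ => h n M hn hM (-(j : ℤ)) i
    rw [card_univ, Fintype.card_fin, nsmul_eq_mul] at h3
    have h4 := sq_Ex_le hP fun ω => (TL (j + 1) ω : ℝ) - TL j ω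
    have h5 := (mul_le_mul_of_nonneg_left h4 (show (0 : ℝ) ≤ j + 1 by positivity)).trans
      (h2.trans h3)
    rw [← div_eq_mul_inv, ← Real.sqrt_div' _ (by positivity)]
    refine Real.le_sqrt_of_sq_le ?_
    rw [le_div_iff₀ (by positivity)]
    linarith
  have h2 : ∀ ω : Fin M → Clause k n, (TL J ω : ℝ) - TL 0 ω =
      ∑ j ∈ range J, ((TL (j + 1) ω : ℝ) - TL j ω) := fun ω =>
    (sum_range_sub (fun j => (TL j ω : ℝ)) J).symm
  rw [Ex_congr h2, Ex_sum]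
  refine (sum_le_sum fun j _ => h1 j).trans ?_
  rw [← mul_sum, Real.sqrt_mul (show (0 : ℝ) ≤ M * K by positivity)]
  have := mul_le_mul_of_nonneg_left (sum_inv_sqrt J) (Real.sqrt_nonneg (M * K))
  linarith

theorem sum_vi_eq {m : ℕ} (F : Fin m → Clause k n) (σ : Fin n → Bool) :
    ∑ i, vi (F i) σ = nViol F σ := by
  classical
  unfold nViol
  rw [card_filter, Nat.cast_sum]
  refine sum_congr rfl fun i _ => ?_
  by_cases h : ClauseSat σ (F i)
  · rw [show vi (F i) σ = 0 from if_pos h]; simp [h]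
  · rw [show vi (F i) σ = 1 from if_neg h]; simp [h]

theorem le_xm (hn : k ≤ n) {M m : ℕ} (h : m ≤ M) (J : ℕ) :
    (J + 1 : ℝ) * (1 - Ex (PW k M (univ : Finset (Fin n))) fun ω => I (m < TL J ω)) ≤ xm k n m := by
  classical
  have hku : k ≤ (univ : Finset (Fin n)).card := by simpa using hn
  have hP := isProb_PW M hku
  have h1 : xm k n m = Ex (PW k m (univ : Finset (Fin n))) fun F => (minViol F : ℝ) := by
    unfold PW
    rw [Cl_univ, Ex_unif_univ]
    rfl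
  have h0 : (1 - Ex (PW k M (univ : Finset (Fin n))) fun ω => I (m < TL J ω)) =
      Ex (PW k M (univ : Finset (Fin n))) fun ω => I (¬ m < TL J ω) := by
    simp only [I_not]
    rw [Ex_sub, hP.Ex_const]
  rw [h1, ← Ex_castLE (isProb_unif (Cl_nonempty hku)) M m h, h0, ← Ex_const_mul]
  refine hP.Ex_mono fun ω => ?_
  rw [mul_comm]
  refine I_mul_le (by positivity) fun h2 => ?_
  obtain ⟨σ, hσ⟩ := exists_minViol fun i => ω (Fin.castLE h i)
  by_contra h3
  refine h2 ((lt_Tm_iff vi_nonneg m).2 ⟨by omega, σ, ?_⟩)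
  rw [En_eq_sum h, sum_vi_eq, hσ]
  have h4 : minViol (fun i => ω (Fin.castLE h i)) < J + 1 := by exact_mod_cast not_le.1 h3
  omega

theorem gap (hk : 3 ≤ k) (α : ℝ) (hα : IsSharpThreshold (satProb k) α) :
    ∃ c : ℝ, 0 < c ∧ ∀ η : ℝ, 0 < η → η ≤ 1 →
      ∀ᶠ n : ℕ in atTop, c * η ^ 2 * n ≤ xm k n ⌊(α + η) * n⌋₊ := by
  have h0 : 0 ≤ α := by
    by_contra h
    have h1 := (hα 0 le_rfl).2 (not_le.1 h)
    have h2 : ∀ n : ℕ, satProb k n ⌊(0 : ℝ) * n⌋₊ = 1 := by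
      intro n
      rw [zero_mul, Nat.floor_zero, satProb_eq_Ex,
        Ex_congr fun F => I_of ⟨fun _ => true, fun j => j.elim0⟩]
      simp [Ex, piW]
    simp only [h2] at h1
    exact one_ne_zero (tendsto_nhds_unique tendsto_const_nhds h1)
  obtain ⟨K, hK, h⟩ := Ex_TL_sub hk (α + 2)
  obtain ⟨c, hc⟩ : ∃ c : ℝ, c = 1 / (256 * ((α + 1) * K + 1)) := ⟨_, rfl⟩
  have hc0 : 0 < c := by rw [hc]; positivity
  have hc1 : (α + 1) * K * c ≤ 1 / 256 := by
    rw [hc, mul_one_div, div_le_div_iff₀ (by positivity) (by norm_num)]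
    linarith
  refine ⟨c / 2, by positivity, fun η hη0 hη1 => ?_⟩
  have h1 := ((hα (α + η / 2) (by linarith)).2 (by linarith)).eventually
    (gt_mem_nhds (show (0 : ℝ) < 1 / 4 by norm_num))
  filter_upwards [h1, eventually_ge_atTop k] with n h1 hn
  have hn1 : (1 : ℝ) ≤ n := by exact_mod_cast (by omega : 1 ≤ n)
  obtain ⟨m, hm⟩ : ∃ m, m = ⌊(α + η) * n⌋₊ := ⟨_, rfl⟩
  obtain ⟨m₀, hm₀⟩ : ∃ m, m = ⌊(α + η / 2) * n⌋₊ := ⟨_, rfl⟩
  obtain ⟨J, hJ⟩ : ∃ J, J = ⌊c * η ^ 2 * n⌋₊ := ⟨_, rfl⟩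
  rw [← hm]
  rw [← hm₀] at h1
  have a1 : (m : ℝ) ≤ (α + η) * n := hm ▸ Nat.floor_le (by positivity)
  have a2 : (α + η) * n < m + 1 := hm ▸ Nat.lt_floor_add_one _
  have a3 : (m₀ : ℝ) ≤ (α + η / 2) * n := hm₀ ▸ Nat.floor_le (by positivity)
  have a4 : m₀ ≤ m := by
    rw [hm, hm₀]; exact Nat.floor_le_floor (by nlinarith)
  have a5 : (J : ℝ) ≤ c * η ^ 2 * n := hJ ▸ Nat.floor_le (by positivity)
  have a6 : c * η ^ 2 * n < J + 1 := hJ ▸ Nat.lt_floor_add_one _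
  have hP := isProb_PW (k := k) m (U := (univ : Finset (Fin n))) (by simpa using hn)
  have h2 := h n m hn (by nlinarith) J
  have h3 : √((m : ℝ) * K * J) ≤ η * n / 16 := by
    refine Real.sqrt_le_iff.2 ⟨by positivity, ?_⟩
    have b1 : (m : ℝ) ≤ (α + 1) * n := by nlinarith
    calc (m : ℝ) * K * J ≤ (α + 1) * n * K * (c * η ^ 2 * n) := by gcongr
      _ = (α + 1) * K * c * (η * n) ^ 2 := by ring
      _ ≤ 1 / 256 * (η * n) ^ 2 := by gcongr
      _ = _ := by ring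
  have hmono : ∀ ω : Fin m → Clause k n, TL 0 ω ≤ TL J ω := fun ω =>
    monotone_nat_of_le_succ (f := fun j => TL j ω) (fun j => TL_le_succ j ω) (Nat.zero_le J)
  have h4 : Ex (PW k m (univ : Finset (Fin n))) (fun ω => I (m < TL J ω)) ≤
      satProb k n m₀ + 2 / (η * n) *
        Ex (PW k m (univ : Finset (Fin n))) fun ω => (TL J ω : ℝ) - TL 0 ω := by
    rw [← Ex_lt_Tm_zero hn a4, ← Ex_const_mul, ← Ex_add]
    refine hP.Ex_mono fun ω => ?_
    have b0 : (TL 0 ω : ℝ) ≤ TL J ω := by exact_mod_cast hmono ω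
    have b1 : 0 ≤ 2 / (η * n) * ((TL J ω : ℝ) - TL 0 ω) :=
      mul_nonneg (by positivity) (by linarith)
    by_cases b2 : m₀ < TL 0 ω
    · rw [I_of (P := m₀ < Tm vi (fun _ => 0) (fun _ => false) ω) b2]
      linarith [I_le_one (m < TL J ω)]
    · refine le_add_of_nonneg_of_le (I_nonneg _) (I_le_of b1 fun b3 => ?_)
      have b4 : (m : ℝ) + 1 ≤ TL J ω := by exact_mod_cast b3
      have b5 : (TL 0 ω : ℝ) ≤ m₀ := by exact_mod_cast not_lt.1 b2
      rw [div_mul_eq_mul_div, le_div_iff₀ (by positivity)]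
      linarith
  have h5 : 2 / (η * n) * Ex (PW k m (univ : Finset (Fin n)))
      (fun ω => (TL J ω : ℝ) - TL 0 ω) ≤ 1 / 4 := by
    rw [div_mul_eq_mul_div, div_le_iff₀ (by positivity)]
    linarith
  refine le_trans ?_ (le_xm hn le_rfl J)
  have h6 : (1 / 2 : ℝ) ≤ 1 - Ex (PW k m (univ : Finset (Fin n))) fun ω => I (m < TL J ω) := by
    linarith
  have h7 := mul_le_mul_of_nonneg_left h6 (show (0 : ℝ) ≤ J + 1 by positivity)
  linarith

end Crest.Agent.R153
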