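import Crest.Agent.R153.Count

/-! Moments of the frozen fraction shortly before death. -/

set_option autoImplicit false
open Finset Function Crest.ProbabilityR.RandomSAT

namespace Crest.Agent.R153
open Crest.Agent.R16

/-- admissible configurations: active variables `U`, free variables `Fr`, start energy `E`,
blank positions `b` -/
structure Cfg (k : ℕ) (C₀ : ℝ) {n M : ℕ} (U Fr : Finset (Fin n)) (E : (Fin n → Bool) → ℤ)
    (b : Fin M → Bool) (w : ℕ) : Prop where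
  sub : Fr ⊆ U
  ind : ∀ v ∈ Fr, ∀ σ x, E (update σ v x) = E σ
  wt : (U \ Fr).card + nb b ≤ w
  hM : (M : ℝ) + 1 ≤ C₀ * U.card
  hk : k ≤ U.card

/-- independent uniform clauses on `U` -/
noncomputable abbrev PW (k M : ℕ) {n : ℕ} (U : Finset (Fin n)) : (Fin M → Clause k n) → ℝ :=
  piW fun _ => unif (Cl k U)

theorem isProb_PW {k n : ℕ} (M : ℕ) {U : Finset (Fin n)} (h : k ≤ U.card) : IsProb (PW k M U) :=
  IsProb.pi fun _ => isProb_unif (Cl_nonempty h)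

/-- a free variable is frozen `t` steps before death with probability `O(t^{-a})` -/
def Bnd (k : ℕ) (a : ℝ) : Prop :=
  ∀ C₀ : ℝ, ∃ K : ℝ, 0 ≤ K ∧ ∀ (n M : ℕ) (U Fr : Finset (Fin n)) (E : (Fin n → Bool) → ℤ)
    (b : Fin M → Bool) (w : ℕ), Cfg k C₀ U Fr E b w → ∀ v ∈ Fr, ∀ t : ℕ, 1 ≤ t →
    Ex (PW k M U) (fun ω => I (t ≤ Tm vi E b ω ∧ Dead (En vi E b ω (Tm vi E b ω - t)) v)) ≤
      K * ((2 : ℝ) ^ k) ^ w * (t : ℝ) ^ (-a)

theorem bnd_zero (k : ℕ) : Bnd k 0 := fun C₀ => ⟨1, zero_le_one, fun n M U Fr E b w h v _ t _ => by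
  refine Ex_le_of (isProb_PW M h.hk) fun ω _ => (I_le_one _).trans ?_
  rw [neg_zero, Real.rpow_zero, one_mul, mul_one]
  exact one_le_pow₀ (one_le_pow₀ one_le_two)⟩

theorem tail_bound {c : ℝ} (h0 : 0 < c) (h1 : c ≤ 1) {t : ℕ} (ht : 1 ≤ t) :
    (1 - c * (t : ℝ) ^ (-(1 / 2) : ℝ)) ^ (t - 1) ≤ 3 * 720 / c ^ 6 * (t : ℝ) ^ (-3 : ℝ) := by
  have ht' : (1 : ℝ) ≤ t := by exact_mod_cast ht
  have ht0 : (0 : ℝ) < t := by linarith
  obtain ⟨s, hs⟩ : ∃ s : ℝ, s = (t : ℝ) ^ (1 / 2 : ℝ) := ⟨_, rfl⟩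
  have hs1 : 1 ≤ s := hs ▸ Real.one_le_rpow ht' (by norm_num)
  have hs2 : s ^ 2 = t := by
    rw [hs, ← Real.rpow_natCast, ← Real.rpow_mul ht0.le]; norm_num
  have e1 : (t : ℝ) ^ (-(1 / 2) : ℝ) = s⁻¹ := by rw [Real.rpow_neg ht0.le, hs]
  have e2 : (t : ℝ) ^ (-3 : ℝ) = (s ^ 6)⁻¹ := by
    rw [Real.rpow_neg ht0.le, show s ^ 6 = (s ^ 2) ^ 3 by ring, hs2]
    norm_cast
  rw [e1, e2]
  have hx1 : c * s⁻¹ ≤ 1 := mul_le_one₀ h1 (by positivity) (inv_le_one_of_one_le₀ hs1)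
  have h2 : (1 - c * s⁻¹) ^ (t - 1) ≤ Real.exp (-(c * s⁻¹)) ^ (t - 1) :=
    pow_le_pow_left₀ (by linarith) (by linarith [Real.add_one_le_exp (-(c * s⁻¹))]) _
  rw [← Real.exp_nat_mul, Nat.cast_sub ht, ← hs2] at h2
  have h3 : (s ^ 2 - (1 : ℕ)) * -(c * s⁻¹) = c * s⁻¹ + -(c * s) := by
    push_cast; field_simp; ring
  rw [h3, Real.exp_add] at h2
  have h4 : Real.exp (c * s⁻¹) ≤ 3 :=
    (Real.exp_le_exp.2 hx1).trans (Real.exp_one_lt_d9.le.trans (by norm_num))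
  have h5 : Real.exp (-(c * s)) ≤ 720 / c ^ 6 * (s ^ 6)⁻¹ := by
    have h6 := Real.pow_div_factorial_le_exp (c * s) (by positivity) 6
    rw [Real.exp_neg]
    refine (inv_anti₀ (by positivity) h6).trans (le_of_eq ?_)
    rw [show ((Nat.factorial 6 : ℕ) : ℝ) = 720 by norm_num [Nat.factorial]]
    field_simp
  calc _ ≤ _ := h2
    _ ≤ 3 * (720 / c ^ 6 * (s ^ 6)⁻¹) := mul_le_mul h4 h5 (Real.exp_pos _).le (by norm_num)
    _ = _ := by ring

theorem pow_split {y δ z : ℝ} {r : ℕ} (hr : 1 ≤ r) (hy0 : 0 ≤ y) (hy1 : y ≤ 1) (hδ : 0 ≤ δ)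
    (hz : 0 ≤ z) : y ^ r ≤ δ ^ (r - 1) * y + z ^ r + I (δ ≤ y ∧ z ≤ y) := by
  have h1 : 0 ≤ δ ^ (r - 1) * y := by positivity
  have h2 : 0 ≤ z ^ r := by positivity
  have h3 := I_nonneg (δ ≤ y ∧ z ≤ y)
  by_cases a : δ ≤ y
  · by_cases b : z ≤ y
    · rw [I_of ⟨a, b⟩]
      have := pow_le_one₀ (n := r) hy0 hy1
      linarith
    · have := pow_le_pow_left₀ hy0 (not_le.1 b).le r
      linarith
  · have e : y ^ r = y ^ (r - 1) * y := by rw [← pow_succ, Nat.sub_add_cancel hr]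
    have := mul_le_mul_of_nonneg_right (pow_le_pow_left₀ hy0 (not_le.1 a).le (r - 1)) hy0
    linarith

theorem moment {k r : ℕ} {a e : ℝ} (hB : Bnd k a) (hr1 : 1 ≤ r) (hrk : r ≤ k)
    (he1 : e ≤ a + (r - 1 : ℝ) / (2 * k)) (he2 : e ≤ r) (he3 : e ≤ 3) (C₀ : ℝ) :
    ∃ K : ℝ, 0 ≤ K ∧ ∀ (n M : ℕ) (U Fr : Finset (Fin n)) (E : (Fin n → Bool) → ℤ)
      (b : Fin M → Bool) (w : ℕ), Cfg k C₀ U Fr E b w → ∀ t : ℕ, 1 ≤ t →
      Ex (PW k M U) (fun ω => I (t ≤ Tm vi E b ω) *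
        (2 * (dead (En vi E b ω (Tm vi E b ω - t)) U).card / U.card) ^ r) ≤
        K * ((2 : ℝ) ^ k) ^ w * (t : ℝ) ^ (-e) := by
  obtain ⟨K, hK, hB⟩ := hB C₀
  have hk : 1 ≤ k := hr1.trans hrk
  obtain ⟨c, hc⟩ : ∃ c : ℝ, c = (1 / 4) ^ k := ⟨_, rfl⟩
  have hc0 : 0 < c := by rw [hc]; positivity
  have hc1 : c ≤ 1 / 4 := by
    rw [hc]; exact (pow_le_pow_of_le_one (by norm_num) (by norm_num) hk).trans (by norm_num)
  refine ⟨4 ^ r * (K + (2 * k * |C₀|) ^ r + 3 * 720 / c ^ 6 + |C₀| ^ r), by positivity,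
    fun n M U Fr E b w h t ht => ?_⟩
  have hP := isProb_PW M h.hk
  have ht' : (1 : ℝ) ≤ t := by exact_mod_cast ht
  have ht0 : (0 : ℝ) < t := by linarith
  have hu : (0 : ℝ) < U.card := by exact_mod_cast (by have := h.hk; omega : 0 < U.card)
  have hk0 : (0 : ℝ) < k := by exact_mod_cast hk
  obtain ⟨δ, hδ⟩ : ∃ δ : ℝ, δ = (t : ℝ) ^ (-(1 / (2 * k)) : ℝ) := ⟨_, rfl⟩
  have hδ0 : 0 ≤ δ := by rw [hδ]; positivity
  have hδk : (δ / 4) ^ k = c * (t : ℝ) ^ (-(1 / 2) : ℝ) := by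
    rw [div_eq_mul_one_div, mul_pow, ← hc, mul_comm, hδ, ← Real.rpow_natCast,
      ← Real.rpow_mul ht0.le]
    congr 2; field_simp
  have hδh : (δ / 4) ^ k ≤ 1 / 2 := by
    rw [hδk]
    have := Real.rpow_le_one_of_one_le_of_nonpos ht' (show (-(1 / 2) : ℝ) ≤ 0 by norm_num)
    nlinarith
  obtain ⟨Λ, hΛ⟩ : ∃ Λ : ℝ, Λ = ((2 : ℝ) ^ k) ^ w := ⟨_, rfl⟩
  have hΛ1 : 1 ≤ Λ := hΛ ▸ one_le_pow₀ (one_le_pow₀ one_le_two)
  have hΛ2 : (2 : ℝ) ^ nb b ≤ Λ := by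
    rw [hΛ, ← pow_mul]
    refine pow_le_pow_right₀ one_le_two ?_
    have := h.wt
    nlinarith
  have hΛ3 : (w : ℝ) ^ r ≤ Λ := by
    rw [hΛ, ← pow_mul, mul_comm, pow_mul]
    have h1 : (w : ℝ) ≤ 2 ^ w := by exact_mod_cast Nat.lt_two_pow_self.le
    exact (pow_le_pow_left₀ (by positivity) h1 r).trans
      (pow_le_pow_right₀ (one_le_pow₀ one_le_two) hrk)
  obtain ⟨X, hX⟩ : ∃ X : ℝ, X = (t : ℝ) ^ (-e) := ⟨_, rfl⟩
  have hX0 : 0 ≤ X := by rw [hX]; positivity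
  have hXr : ((t : ℝ)⁻¹) ^ r ≤ X := by
    rw [hX, inv_pow, ← Real.rpow_natCast, ← Real.rpow_neg ht0.le]
    exact Real.rpow_le_rpow_of_exponent_le ht' (by linarith)
  rw [← hΛ, ← hX]
  -- pointwise bound
  have key : ∀ ω : Fin M → Clause k n, I (t ≤ Tm vi E b ω) *
      (2 * (dead (En vi E b ω (Tm vi E b ω - t)) U).card / U.card) ^ r ≤
      4 ^ r * (δ ^ (r - 1) / U.card * ∑ v ∈ Fr,
          I (t ≤ Tm vi E b ω ∧ Dead (En vi E b ω (Tm vi E b ω - t)) v) +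
        I (t ≤ Tm vi E b ω ∧ (δ / 4) ^ k ≤
          kap (unif (Cl k U)) vi (En vi E b ω (Tm vi E b ω - t))) +
        ((2 * k * |C₀|) ^ r + |C₀| ^ r) * Λ * X) := by
    intro ω
    have hI := fun P => I_nonneg P
    refine I_mul_le ?_ fun hT => ?_
    · have := sum_nonneg (s := Fr) fun v _ =>
        I_nonneg (t ≤ Tm vi E b ω ∧ Dead (En vi E b ω (Tm vi E b ω - t)) v)
      have := hI (t ≤ Tm vi E b ω ∧ (δ / 4) ^ k ≤
          kap (unif (Cl k U)) vi (En vi E b ω (Tm vi E b ω - t)))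
      positivity
    generalize En vi E b ω (Tm vi E b ω - t) = E'
    simp only [hT, true_and]
    rw [← card_dead]
    have hinv : (U.card : ℝ)⁻¹ ≤ |C₀| * (t : ℝ)⁻¹ := by
      have h1 : (t : ℝ) ≤ M + 1 := by exact_mod_cast hT.trans Tm_le
      have h2 := h.hM.trans (mul_le_mul_of_nonneg_right (le_abs_self C₀) hu.le)
      rw [← div_eq_mul_inv, le_div_iff₀ ht0, inv_mul_le_iff₀ hu]
      linarith
    have hsub : dead E' Fr ⊆ dead E' U := fun u hu =>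
      mem_dead.2 ⟨h.sub (mem_dead.1 hu).1, (mem_dead.1 hu).2⟩
    have hd : (dead E' U).card ≤ (dead E' Fr).card + w := by
      have : dead E' U ⊆ dead E' Fr ∪ (U \ Fr) := fun u hu => by
        rw [mem_union, mem_dead, mem_sdiff]
        by_cases h' : u ∈ Fr
        · exact Or.inl ⟨h', (mem_dead.1 hu).2⟩
        · exact Or.inr ⟨(mem_dead.1 hu).1, h'⟩
      have h2 := (card_le_card this).trans (card_union_le _ _)
      have := h.wt
      omega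
    obtain ⟨y, hy⟩ : ∃ y : ℝ, y = (dead E' Fr).card / U.card := ⟨_, rfl⟩
    have hy0 : 0 ≤ y := by rw [hy]; positivity
    have hy1 : y ≤ 1 := by
      rw [hy, div_le_one hu]
      exact_mod_cast card_le_card ((dead_subset E' Fr).trans h.sub)
    have h1 : (2 * (dead E' U).card / U.card : ℝ) ≤ 2 * (y + w / U.card) := by
      rw [hy, ← add_div, mul_div_assoc]
      have : ((dead E' U).card : ℝ) ≤ (dead E' Fr).card + w := by exact_mod_cast hd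
      gcongr
    have h2 : (2 * (dead E' U).card / U.card : ℝ) ^ r ≤ 4 ^ r * (y ^ r + (w / U.card) ^ r) := by
      refine (pow_le_pow_left₀ (by positivity) h1 r).trans ?_
      rw [mul_pow, show (4 : ℝ) = 2 * 2 by norm_num, mul_pow, mul_assoc]
      refine mul_le_mul_of_nonneg_left ((add_pow_le hy0 (by positivity) r).trans ?_) (by positivity)
      exact mul_le_mul_of_nonneg_right (pow_le_pow_right₀ one_le_two (Nat.sub_le _ _))
        (by positivity)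
    refine h2.trans (mul_le_mul_of_nonneg_left ?_ (by positivity))
    have h3 := pow_split (z := 2 * k / U.card) hr1 hy0 hy1 hδ0 (by positivity)
    have h4 : I (δ ≤ y ∧ 2 * k / U.card ≤ y) ≤ I ((δ / 4) ^ k ≤ kap (unif (Cl k U)) vi E') := by
      refine I_mono fun ⟨a1, a2⟩ => le_kap_vi hk E' hδ0 ?_ ?_
      · rw [hy, div_le_div_iff_of_pos_right hu] at a2
        have : 2 * k ≤ (dead E' Fr).card := by exact_mod_cast a2
        exact this.trans (card_le_card hsub)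
      · rw [hy, le_div_iff₀ hu] at a1
        exact a1.trans (by exact_mod_cast card_le_card hsub)
    have h5 : (2 * k / U.card : ℝ) ^ r ≤ (2 * k * |C₀|) ^ r * Λ * X := by
      calc (2 * k / U.card : ℝ) ^ r ≤ (2 * k * (|C₀| * (t : ℝ)⁻¹)) ^ r := by
            rw [div_eq_mul_inv]; gcongr
        _ = (2 * k * |C₀|) ^ r * 1 * ((t : ℝ)⁻¹) ^ r := by rw [← mul_assoc, mul_pow, mul_one]
        _ ≤ _ := by gcongr
    have h6 : (w / U.card : ℝ) ^ r ≤ |C₀| ^ r * Λ * X := by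
      calc (w / U.card : ℝ) ^ r ≤ (w * (|C₀| * (t : ℝ)⁻¹)) ^ r := by
            rw [div_eq_mul_inv]; gcongr
        _ = |C₀| ^ r * (w : ℝ) ^ r * ((t : ℝ)⁻¹) ^ r := by rw [mul_pow, mul_pow]; ring
        _ ≤ _ := by gcongr
    have h7 : δ ^ (r - 1) / U.card * (dead E' Fr).card = δ ^ (r - 1) * y := by rw [hy]; ring
    rw [h7]
    linarith
  refine (hP.Ex_mono key).trans ?_
  rw [Ex_const_mul, Ex_add, Ex_add, Ex_const_mul, Ex_sum, hP.Ex_const, mul_assoc (4 ^ r * _),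
    mul_assoc (4 ^ r)]
  refine mul_le_mul_of_nonneg_left ?_ (by positivity)
  have h1 : δ ^ (r - 1) / U.card * ∑ v ∈ Fr, Ex (PW k M U) (fun ω =>
      I (t ≤ Tm vi E b ω ∧ Dead (En vi E b ω (Tm vi E b ω - t)) v)) ≤ K * Λ * X := by
    have h2 := sum_le_card_nsmul Fr _ _ fun v hv => hB n M U Fr E b w h v hv t ht
    rw [nsmul_eq_mul, ← hΛ] at h2
    have h3 : (Fr.card : ℝ) ≤ U.card := by exact_mod_cast card_le_card h.sub
    have h4 : δ ^ (r - 1) * (t : ℝ) ^ (-a) ≤ X := by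
      rw [hδ, hX, ← Real.rpow_natCast, ← Real.rpow_mul ht0.le, ← Real.rpow_add ht0]
      refine Real.rpow_le_rpow_of_exponent_le ht' ?_
      rw [Nat.cast_sub hr1]
      have : -(1 / (2 * (k : ℝ))) * ((r : ℝ) - (1 : ℕ)) = -((r - 1 : ℝ) / (2 * k)) := by
        push_cast; ring
      linarith
    have h5 : 0 ≤ K * Λ * (t : ℝ) ^ (-a) := by positivity
    calc _ ≤ δ ^ (r - 1) / U.card * (U.card * (K * Λ * (t : ℝ) ^ (-a))) :=
          mul_le_mul_of_nonneg_left (h2.trans (mul_le_mul_of_nonneg_right h3 h5)) (by positivity)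
      _ = K * Λ * (δ ^ (r - 1) * (t : ℝ) ^ (-a)) := by field_simp
      _ ≤ _ := by gcongr
  have h2 := hazard (isProb_unif (Cl_nonempty h.hk)) vi_nonneg hδh E b ht
  have h3 : (2 : ℝ) ^ nb b * (1 - (δ / 4) ^ k) ^ (t - 1) ≤ 3 * 720 / c ^ 6 * Λ * X := by
    have h4 := tail_bound hc0 (by linarith) ht
    rw [← hδk] at h4
    have h5 : (t : ℝ) ^ (-3 : ℝ) ≤ X := hX ▸ Real.rpow_le_rpow_of_exponent_le ht' (by linarith)
    calc _ ≤ Λ * (3 * 720 / c ^ 6 * X) :=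
          mul_le_mul hΛ2 (h4.trans (by gcongr)) (pow_nonneg (by linarith) _) (by linarith)
      _ = _ := by ring
  have h4 := h2.trans h3
  nlinarith

end Crest.Agent.R153
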