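import Mathlib
import Crest.Agent.R16.Ex

/-! Finite product probability: conditioning, splicing, mixtures, Efron–Stein. -/

set_option autoImplicit false
open Finset Function

namespace Crest.Agent.R153
open Crest.Agent.R16

open Classical in
/-- indicator of a proposition -/
noncomputable def I (P : Prop) : ℝ := if P then 1 else 0

theorem I_of {P : Prop} (h : P) : I P = 1 := if_pos h
theorem I_of_not {P : Prop} (h : ¬ P) : I P = 0 := if_neg h
theorem I_nonneg (P : Prop) : 0 ≤ I P := by unfold I; split_ifs <;> norm_num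
theorem I_le_one (P : Prop) : I P ≤ 1 := by unfold I; split_ifs <;> norm_num
theorem I_mono {P Q : Prop} (h : P → Q) : I P ≤ I Q := by
  by_cases hP : P
  · rw [I_of hP, I_of (h hP)]
  · rw [I_of_not hP]; exact I_nonneg Q
theorem I_congr {P Q : Prop} (h : P ↔ Q) : I P = I Q := by rw [propext h]
theorem I_le_add {P Q R : Prop} (h : P → Q ∨ R) : I P ≤ I Q + I R := by
  by_cases hP : P
  · rw [I_of hP]
    rcases h hP with h | h
    · rw [I_of h]; linarith [I_nonneg R]
    · rw [I_of h]; linarith [I_nonneg Q]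
  · rw [I_of_not hP]; linarith [I_nonneg R, I_nonneg Q]
theorem I_and (P Q : Prop) : I (P ∧ Q) = I P * I Q := by
  by_cases hP : P <;> by_cases hQ : Q <;> simp [I, hP, hQ]
theorem I_not (P : Prop) : I (¬ P) = 1 - I P := by
  by_cases hP : P <;> simp [I, hP]
theorem I_le_of {P : Prop} {x : ℝ} (h0 : 0 ≤ x) (h : P → 1 ≤ x) : I P ≤ x := by
  by_cases hP : P
  · rw [I_of hP]; exact h hP
  · rw [I_of_not hP]; exact h0
theorem I_mul_le {P : Prop} {x y : ℝ} (h0 : 0 ≤ y) (h : P → x ≤ y) : I P * x ≤ y := by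
  by_cases hP : P
  · rw [I_of hP, one_mul]; exact h hP
  · rw [I_of_not hP, zero_mul]; exact h0
theorem card_filter_eq_sum_I {α : Type*} (s : Finset α) (P : α → Prop) [DecidablePred P] :
    ((s.filter P).card : ℝ) = ∑ x ∈ s, I (P x) := by
  rw [card_filter, Nat.cast_sum]
  refine sum_congr rfl fun x _ => ?_
  by_cases h : P x <;> simp [I, h]

section basic
variable {Ω Ω' : Type*} [Fintype Ω] [Fintype Ω'] {w : Ω → ℝ}

theorem Ex_mono_supp (hw : IsProb w) {f g : Ω → ℝ} (h : ∀ ω, w ω ≠ 0 → f ω ≤ g ω) :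
    Ex w f ≤ Ex w g := by
  unfold Ex
  refine sum_le_sum fun ω _ => ?_
  by_cases h0 : w ω = 0
  · simp [h0]
  · exact mul_le_mul_of_nonneg_left (h ω h0) (hw.nonneg ω)

theorem Ex_le_of (hw : IsProb w) {f : Ω → ℝ} {a : ℝ} (h : ∀ ω, w ω ≠ 0 → f ω ≤ a) :
    Ex w f ≤ a := (Ex_mono_supp hw h).trans (hw.Ex_const a).le

theorem Ex_comm (w : Ω → ℝ) (w' : Ω' → ℝ) (f : Ω → Ω' → ℝ) :
    Ex w (fun a => Ex w' (fun b => f a b)) = Ex w' (fun b => Ex w (fun a => f a b)) := by
  unfold Ex
  simp only [mul_sum]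
  rw [sum_comm]
  exact sum_congr rfl fun _ _ => sum_congr rfl fun _ _ => by ring

theorem Ex_sq_le (hw : IsProb w) (f : Ω → ℝ) (a : ℝ) :
    Ex w (fun ω => f ω ^ 2) - (Ex w f) ^ 2 ≤ Ex w (fun ω => (f ω - a) ^ 2) := by
  have h1 : Ex w (fun ω => (f ω - a) ^ 2) =
      Ex w (fun ω => f ω ^ 2) - 2 * a * Ex w f + a ^ 2 := by
    rw [← Ex_const_mul, ← Ex_sub, ← hw.Ex_const (a ^ 2), ← Ex_add]
    exact Ex_congr fun ω => by ring
  rw [h1]
  nlinarith [sq_nonneg (Ex w f - a)]

theorem sq_Ex_le (hw : IsProb w) (f : Ω → ℝ) : (Ex w f) ^ 2 ≤ Ex w (fun ω => f ω ^ 2) := by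
  have h1 : Ex w (fun ω => (f ω - Ex w f) ^ 2) = Ex w (fun ω => f ω ^ 2) - (Ex w f) ^ 2 := by
    have : Ex w (fun ω => (f ω - Ex w f) ^ 2) =
        Ex w (fun ω => f ω ^ 2) - 2 * Ex w f * Ex w f + (Ex w f) ^ 2 := by
      rw [← Ex_const_mul, ← Ex_sub, ← hw.Ex_const ((Ex w f) ^ 2), ← Ex_add]
      exact Ex_congr fun ω => by ring
    rw [this]; ring
  have h2 := hw.Ex_nonneg (f := fun ω => (f ω - Ex w f) ^ 2) fun ω => sq_nonneg _
  linarith

/-- uniform weight on a finite set -/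
noncomputable def unif [DecidableEq Ω] (s : Finset Ω) : Ω → ℝ :=
  fun ω => if ω ∈ s then (s.card : ℝ)⁻¹ else 0

theorem Ex_unif [DecidableEq Ω] (s : Finset Ω) (f : Ω → ℝ) :
    Ex (unif s) f = (s.card : ℝ)⁻¹ * ∑ ω ∈ s, f ω := by
  unfold Ex unif
  simp only [ite_mul, zero_mul, sum_ite_mem, univ_inter, mul_sum]

theorem isProb_unif [DecidableEq Ω] {s : Finset Ω} (hs : s.Nonempty) : IsProb (unif s) where
  nonneg ω := by unfold unif; split_ifs <;> positivity
  total := by
    have := Ex_unif s (fun _ => 1)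
    simp only [Ex, mul_one, sum_const, nsmul_eq_mul] at this
    rw [this, inv_mul_cancel₀]
    exact_mod_cast hs.card_pos.ne'

omit [Fintype Ω] in
theorem mem_of_unif [DecidableEq Ω] {s : Finset Ω} {ω : Ω} (h : unif s ω ≠ 0) : ω ∈ s := by
  by_contra h'; exact h (if_neg h')

theorem Ex_unif_I [DecidableEq Ω] (s : Finset Ω) (P : Ω → Prop) [DecidablePred P] :
    Ex (unif s) (fun ω => I (P ω)) = ((s.filter P).card : ℝ) / s.card := by
  rw [Ex_unif, card_filter_eq_sum_I, div_eq_inv_mul]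

omit [Fintype Ω] in
theorem unif_mix [DecidableEq Ω] {s t : Finset Ω} (hts : t ⊆ s) (ht : t.Nonempty)
    (hst : (s \ t).Nonempty) (ω : Ω) :
    unif s ω = ((s \ t).card / s.card : ℝ) * unif (s \ t) ω +
      (1 - ((s \ t).card / s.card : ℝ)) * unif t ω := by
  have h1 : (0 : ℝ) < t.card := by exact_mod_cast ht.card_pos
  have h2 : (0 : ℝ) < (s \ t).card := by exact_mod_cast hst.card_pos
  have h3 : (s.card : ℝ) = (s \ t).card + t.card := by
    exact_mod_cast (card_sdiff_add_card_eq_card hts).symm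
  unfold unif
  by_cases a : ω ∈ t
  · rw [if_pos (hts a), if_neg (by simp [a]), if_pos a, h3]; field_simp; ring
  · by_cases b : ω ∈ s
    · rw [if_pos b, if_pos (by simp [a, b]), if_neg a, h3]; field_simp; ring
    · rw [if_neg b, if_neg (by simp [b]), if_neg a]; ring
end basic

section pi
variable {ι : Type*} [Fintype ι] [DecidableEq ι] {C : Type*} [Fintype C]

omit [DecidableEq ι] [Fintype C] in
theorem piW_ne_zero {w : ι → C → ℝ} {ω : ι → C} (h : piW w ω ≠ 0) (i : ι) : w i (ω i) ≠ 0 :=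
  (prod_ne_zero_iff.1 h) i (mem_univ i)

theorem Ex_cons {M : ℕ} (w : C → ℝ) (f : (Fin (M + 1) → C) → ℝ) :
    Ex (piW fun _ => w) f = Ex w fun c => Ex (piW fun _ : Fin M => w) fun ω => f (Fin.cons c ω) := by
  unfold Ex piW
  simp only [mul_sum]
  rw [← sum_product', univ_product_univ]
  refine (Fintype.sum_equiv (Fin.consEquiv fun _ => C) _ _ fun p => ?_).symm
  simp only [Fin.consEquiv, Equiv.coe_fn_mk, Fin.prod_univ_succ, Fin.cons_zero, Fin.cons_succ]
  ring

theorem Ex_splice {w₁ w₂ : ι → C → ℝ} (h₁ : ∀ i, IsProb (w₁ i)) (h₂ : ∀ i, IsProb (w₂ i))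
    (J : Finset ι) (f : (ι → C) → ℝ) :
    Ex (piW w₁) (fun a => Ex (piW w₂) fun b => f (J.piecewise a b)) =
      Ex (piW (J.piecewise w₁ w₂)) f := by
  have hp : IsProb (piW (J.piecewise w₂ w₁)) := IsProb.pi fun i => by
    by_cases h : i ∈ J
    · rw [piecewise_eq_of_mem _ _ _ h]; exact h₂ i
    · rw [piecewise_eq_of_notMem _ _ _ h]; exact h₁ i
  have e : Ex (piW (J.piecewise w₁ w₂)) f =
      Ex (piW (J.piecewise w₁ w₂)) fun a => Ex (piW (J.piecewise w₂ w₁)) fun _ => f a :=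
    Ex_congr fun a => (hp.Ex_const _).symm
  rw [e]
  unfold Ex
  simp only [mul_sum]
  rw [← sum_product', ← sum_product', univ_product_univ]
  have hinv : Involutive fun p : (ι → C) × (ι → C) => (J.piecewise p.1 p.2, J.piecewise p.2 p.1) := by
    rintro ⟨a, b⟩
    ext i <;> by_cases h : i ∈ J <;> simp [h]
  refine Fintype.sum_equiv hinv.toPerm _ _ fun p => ?_
  simp only [Involutive.coe_toPerm, ← mul_assoc]
  congr 1
  unfold piW
  rw [← prod_mul_distrib, ← prod_mul_distrib]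
  refine prod_congr rfl fun i _ => ?_
  by_cases h : i ∈ J <;> simp [h, mul_comm]

theorem Ex_resample {w : ι → C → ℝ} (hw : ∀ i, IsProb (w i)) (i : ι) (f : (ι → C) → ℝ) :
    Ex (piW w) f = Ex (piW w) fun ω => Ex (w i) fun c => f (update ω i c) := by
  have h := Ex_splice hw hw {i} f
  rw [piecewise_same, Ex_comm] at h
  rw [← h]
  refine Ex_congr fun b => ?_
  rw [← Ex_pi_eval hw i]
  exact Ex_congr fun a => by rw [piecewise_singleton]

theorem Ex_mix {a b w : C → ℝ} (ha : IsProb a) (hb : IsProb b) (p : ℝ)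
    (hw : ∀ c, w c = p * a c + (1 - p) * b c) (f : (ι → C) → ℝ) :
    Ex (piW fun _ => w) f = ∑ J : Finset ι, p ^ J.card * (1 - p) ^ (Fintype.card ι - J.card) *
      Ex (piW fun _ => a) fun x => Ex (piW fun _ => b) fun y => f (J.piecewise x y) := by
  have h1 : ∀ ω : ι → C, piW (fun _ => w) ω = ∑ J : Finset ι,
      p ^ J.card * (1 - p) ^ (Fintype.card ι - J.card) *
        piW (J.piecewise (fun _ => a) fun _ => b) ω := by
    intro ω
    unfold piW
    simp only [hw]
    rw [prod_add, powerset_univ]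
    refine sum_congr rfl fun J _ => ?_
    have e : ∏ i, J.piecewise (fun _ => a) (fun _ => b) i (ω i) =
        (∏ i ∈ J, a (ω i)) * ∏ i ∈ univ \ J, b (ω i) := by
      rw [← prod_sdiff (subset_univ J), mul_comm]
      congr 1
      · exact prod_congr rfl fun i hi => by rw [piecewise_eq_of_mem _ _ _ hi]
      · exact prod_congr rfl fun i hi => by rw [piecewise_eq_of_notMem _ _ _ (mem_sdiff.1 hi).2]
    rw [e, prod_mul_distrib, prod_mul_distrib, prod_const, prod_const, card_univ_sdiff]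
    ring
  simp only [Ex_splice (fun _ => ha) (fun _ => hb)]
  unfold Ex
  simp only [h1, sum_mul, mul_sum]
  rw [sum_comm]
  exact sum_congr rfl fun _ _ => sum_congr rfl fun _ _ => by ring

theorem sum_binom (p lam : ℝ) :
    ∑ J : Finset ι, p ^ J.card * (1 - p) ^ (Fintype.card ι - J.card) * lam ^ J.card =
      (p * lam + (1 - p)) ^ Fintype.card ι := by
  have := prod_add (fun _ : ι => p * lam) (fun _ => 1 - p) univ
  rw [prod_const, card_univ, powerset_univ] at this
  rw [this]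
  refine sum_congr rfl fun J _ => ?_
  rw [prod_const, prod_const, card_univ_sdiff, mul_pow]; ring

theorem Ex_castLE {w : C → ℝ} (hw : IsProb w) (M : ℕ) : ∀ (s : ℕ) (h : s ≤ M)
    (f : (Fin s → C) → ℝ), Ex (piW fun _ : Fin M => w) (fun ω => f fun i => ω (Fin.castLE h i)) =
      Ex (piW fun _ : Fin s => w) f := by
  induction M with
  | zero =>
    intro s h f
    obtain rfl : s = 0 := by omega
    exact Ex_congr fun ω => rfl
  | succ M ih =>
    intro s h f
    cases s with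
    | zero =>
      have e : ∀ ω : Fin 0 → C, f ω = f Fin.elim0 := fun ω => congrArg f (Subsingleton.elim _ _)
      simp only [e]
      rw [(IsProb.pi fun _ => hw).Ex_const, show f = fun _ => f Fin.elim0 from funext e,
        (IsProb.pi fun _ => hw).Ex_const]
    | succ s =>
      rw [Ex_cons, Ex_cons]
      refine Ex_congr fun c => ?_
      rw [← ih s (by omega)]
      refine Ex_congr fun ω => congrArg f (funext fun i => ?_)
      refine Fin.cases rfl (fun j => ?_) i
      rfl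

/-- the Efron–Stein inequality -/
theorem efron_stein {w : C → ℝ} (hw : IsProb w) (M : ℕ) : ∀ (f : (Fin M → C) → ℝ)
    (g : Fin M → (Fin M → C) → ℝ), (∀ i ω c, g i (update ω i c) = g i ω) →
    Ex (piW fun _ => w) (fun ω => f ω ^ 2) - (Ex (piW fun _ => w) f) ^ 2 ≤
      ∑ i, Ex (piW fun _ => w) fun ω => (f ω - g i ω) ^ 2 := by
  induction M with
  | zero =>
    intro f g _
    have e : f = fun _ => f Fin.elim0 := funext fun ω => congrArg f (Subsingleton.elim _ _)
    rw [e, (IsProb.pi fun _ => hw).Ex_const, (IsProb.pi fun _ => hw).Ex_const]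
    simp
  | succ M ih =>
    intro f g hg
    have hp : IsProb (piW fun _ : Fin M => w) := IsProb.pi fun _ => hw
    rw [Fin.sum_univ_succ]
    simp only [Ex_cons]
    obtain ⟨h, hh⟩ : ∃ h : C → ℝ, h = fun c => Ex (piW fun _ : Fin M => w) fun ω => f (Fin.cons c ω) :=
      ⟨_, rfl⟩
    obtain ⟨a, ha⟩ : ∃ a : ℝ,
      a = Ex w fun c => Ex (piW fun _ : Fin M => w) fun ω => g 0 (Fin.cons c ω) := ⟨_, rfl⟩
    have h0 : ∀ c, Ex (piW fun _ : Fin M => w) (fun ω => g 0 (Fin.cons c ω)) = a := by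
      intro c
      rw [ha, ← hw.Ex_const (Ex _ fun ω => g 0 (Fin.cons c ω))]
      refine Ex_congr fun c' => Ex_congr fun ω => ?_
      rw [← hg 0 _ c', Fin.update_cons_zero]
    have h1 : Ex w (fun c => h c ^ 2) - (Ex w h) ^ 2 ≤ Ex w fun c =>
        Ex (piW fun _ : Fin M => w) fun ω => (f (Fin.cons c ω) - g 0 (Fin.cons c ω)) ^ 2 := by
      refine (Ex_sq_le hw h a).trans (hw.Ex_mono fun c => ?_)
      refine le_trans (le_of_eq ?_) (sq_Ex_le hp _)
      rw [Ex_sub, h0 c, hh]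
    have h2 : Ex w (fun c => Ex (piW fun _ : Fin M => w) fun ω => f (Fin.cons c ω) ^ 2) -
        Ex w (fun c => h c ^ 2) ≤ ∑ i : Fin M, Ex w fun c => Ex (piW fun _ : Fin M => w)
          fun ω => (f (Fin.cons c ω) - g i.succ (Fin.cons c ω)) ^ 2 := by
      rw [← Ex_sub, ← Ex_sum]
      refine hw.Ex_mono fun c => ?_
      rw [hh]
      refine ih (fun ω => f (Fin.cons c ω)) (fun i ω => g i.succ (Fin.cons c ω)) fun i ω x => ?_
      rw [Fin.cons_update, hg]
    rw [← hh]
    linarith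

theorem Ex_unif_univ [DecidableEq C] (f : (ι → C) → ℝ) :
    Ex (piW fun _ => unif (univ : Finset C)) f = (Fintype.card (ι → C) : ℝ)⁻¹ * ∑ ω, f ω := by
  unfold Ex piW unif
  simp only [mem_univ, if_true, prod_const, card_univ, Fintype.card_fun, Nat.cast_pow, inv_pow,
    mul_sum]

end pi

end Crest.Agent.R153
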