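import Crest.Agent.R153.Prob

/-! The abstract energy process, its lifetime, the hazard bound and the delay bound. -/

set_option autoImplicit false
open Finset Function

namespace Crest.Agent.R153
open Crest.Agent.R16

variable {C S : Type*}

/-- some state has nonpositive energy -/
def Alive (E : S → ℤ) : Prop := ∃ σ, E σ ≤ 0

theorem Alive.mono {E E' : S → ℤ} (h : Alive E') (hle : ∀ σ, E σ ≤ E' σ) : Alive E := by
  obtain ⟨σ, hσ⟩ := h
  exact ⟨σ, (hle σ).trans hσ⟩

/-- the energy after `s` steps; the positions with `b i = true` are blank -/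
def En (vi : C → S → ℤ) {M : ℕ} (E : S → ℤ) (b : Fin M → Bool) (ω : Fin M → C) (s : ℕ) : S → ℤ :=
  fun σ => E σ + ∑ i : Fin M, if i.val < s ∧ b i = false then vi (ω i) σ else 0

open Classical in
/-- the lifetime, capped at `M + 1` -/
noncomputable def Tm (vi : C → S → ℤ) {M : ℕ} (E : S → ℤ) (b : Fin M → Bool) (ω : Fin M → C) : ℕ :=
  ((range (M + 1)).filter fun s => Alive (En vi E b ω s)).card

/-- the number of blank positions -/
def nb {M : ℕ} (b : Fin M → Bool) : ℕ := ∑ i, if b i then 1 else 0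

/-- the probability that one more constraint kills -/
noncomputable def kap [Fintype C] (w : C → ℝ) (vi : C → S → ℤ) (E : S → ℤ) : ℝ :=
  Ex w fun c => I (¬ Alive fun σ => E σ + vi c σ)

theorem lt_card_filter_iff {P : ℕ → Prop} [DecidablePred P] (hP : ∀ s s', s ≤ s' → P s' → P s)
    (N s : ℕ) : s < ((range N).filter P).card ↔ s < N ∧ P s := by
  constructor
  · intro h
    by_contra h'
    have : (range N).filter P ⊆ range s := by
      intro x hx
      rw [mem_filter, mem_range] at hx
      rw [mem_range]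
      by_contra h2
      exact h' ⟨by omega, hP s x (by omega) hx.2⟩
    have := card_le_card this
    rw [card_range] at this
    omega
  · rintro ⟨h1, h2⟩
    have : range (s + 1) ⊆ (range N).filter P := by
      intro x hx
      rw [mem_range] at hx
      rw [mem_filter, mem_range]
      exact ⟨by omega, hP x s (by omega) h2⟩
    have := card_le_card this
    rw [card_range] at this
    omega

section
variable {vi : C → S → ℤ} {M : ℕ} {E E' : S → ℤ} {b b' : Fin M → Bool} {ω : Fin M → C}

theorem En_le (hv : ∀ c σ, 0 ≤ vi c σ) (hE : ∀ σ, E σ ≤ E' σ) (hb : ∀ i, b i = false → b' i = false)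
    {s s' : ℕ} (h : s ≤ s') (σ : S) : En vi E b ω s σ ≤ En vi E' b' ω s' σ := by
  unfold En
  refine add_le_add (hE σ) (sum_le_sum fun i _ => ?_)
  by_cases h1 : i.val < s ∧ b i = false
  · rw [if_pos h1, if_pos ⟨by omega, hb i h1.2⟩]
  · rw [if_neg h1]; split_ifs
    · exact hv _ _
    · exact le_rfl

theorem En_zero : En vi E b ω 0 = E := by
  ext σ; simp [En]

theorem En_add (D : S → ℤ) (s : ℕ) :
    En vi (fun σ => E σ + D σ) b ω s = fun σ => En vi E b ω s σ + D σ := by
  ext σ; unfold En; ring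

theorem lt_Tm_iff (hv : ∀ c σ, 0 ≤ vi c σ) (s : ℕ) :
    s < Tm vi E b ω ↔ s < M + 1 ∧ Alive (En vi E b ω s) := by
  classical
  unfold Tm
  convert lt_card_filter_iff (P := fun s => Alive (En vi E b ω s))
    (fun s s' h h' => h'.mono (En_le hv (fun _ => le_rfl) (fun _ h => h) h)) (M + 1) s

theorem Tm_le : Tm vi E b ω ≤ M + 1 := by
  classical
  unfold Tm
  exact (card_filter_le _ _).trans (card_range _).le

theorem Tm_le_Tm {vi' : C → S → ℤ} {ω' : Fin M → C}
    (h : ∀ s, Alive (En vi E b ω s) → Alive (En vi' E' b' ω' s)) :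
    Tm vi E b ω ≤ Tm vi' E' b' ω' := by
  classical
  unfold Tm
  refine card_le_card fun s hs => ?_
  simp only [mem_filter] at hs ⊢
  exact ⟨hs.1, h s hs.2⟩

theorem Tm_anti (hv : ∀ c σ, 0 ≤ vi c σ) (hE : ∀ σ, E σ ≤ E' σ)
    (hb : ∀ i, b i = false → b' i = false) : Tm vi E' b' ω ≤ Tm vi E b ω :=
  Tm_le_Tm fun _ h => h.mono (En_le hv hE hb le_rfl)

theorem alive_of_le_Tm (hv : ∀ c σ, 0 ≤ vi c σ) {t : ℕ} (h1 : 1 ≤ t) (ht : t ≤ Tm vi E b ω) :
    Alive (En vi E b ω (Tm vi E b ω - t)) := ((lt_Tm_iff hv _).1 (by omega)).2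

/-- a delay of `t` means that the extra energy kills `t` steps before death -/
theorem dead_of_delay (hv : ∀ c σ, 0 ≤ vi c σ) {D : S → ℤ} {t : ℕ} (h1 : 1 ≤ t)
    (h : Tm vi (fun σ => E σ + D σ) b ω + t ≤ Tm vi E b ω) :
    t ≤ Tm vi E b ω ∧ ¬ Alive fun σ => En vi E b ω (Tm vi E b ω - t) σ + D σ := by
  refine ⟨by omega, fun h2 => ?_⟩
  rw [← En_add] at h2
  have h3 := (lt_Tm_iff hv _).2 ⟨by have := Tm_le (vi := vi) (E := E) (b := b) (ω := ω); omega, h2⟩
  omega

theorem En_cons (c : C) (b : Fin (M + 1) → Bool) (s : ℕ) :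
    En vi E b (Fin.cons c ω) (s + 1) =
      En vi (fun σ => E σ + if b 0 = false then vi c σ else 0) (fun i => b i.succ) ω s := by
  ext σ
  unfold En
  rw [Fin.sum_univ_succ]
  simp only [Fin.val_zero, Nat.zero_lt_succ, true_and, Fin.cons_zero, Fin.val_succ, Fin.cons_succ,
    Nat.add_lt_add_iff_right]
  ring

theorem nb_succ (b : Fin (M + 1) → Bool) :
    nb b = (if b 0 then 1 else 0) + nb fun i => b i.succ := Fin.sum_univ_succ _

theorem En_update_blank {i : Fin M} (hi : b i = true) (c : C) (s : ℕ) :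
    En vi E b (update ω i c) s = En vi E b ω s := by
  ext σ
  unfold En
  congr 1
  refine sum_congr rfl fun j _ => ?_
  by_cases h : j = i
  · subst h; simp [hi]
  · rw [update_of_ne h]

theorem Tm_update_blank {i : Fin M} (hi : b i = true) (c : C) :
    Tm vi E b (update ω i c) = Tm vi E b ω := by
  have : En vi E b (update ω i c) = En vi E b ω := funext (En_update_blank hi c)
  unfold Tm
  rw [this]
end

section
variable [Fintype C] {w : C → ℝ} {vi : C → S → ℤ}

theorem kap_mono (hw : IsProb w) {E E' : S → ℤ} (h : ∀ σ, E σ ≤ E' σ) :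
    kap w vi E ≤ kap w vi E' :=
  hw.Ex_mono fun c => I_mono fun h1 h2 => h1 (h2.mono fun σ => by linarith [h σ])

theorem hazard_aux (hw : IsProb w) (hv : ∀ c σ, 0 ≤ vi c σ) {δ : ℝ} (h1 : δ ≤ 1 / 2)
    (M : ℕ) : ∀ (E : S → ℤ) (b : Fin M → Bool) (t : ℕ),
      Ex (piW fun _ => w) (fun ω : Fin M → C => I (∃ s, s + t ≤ M ∧ δ ≤ kap w vi (En vi E b ω s) ∧
        Alive (En vi E b ω (s + t)))) ≤ 2 ^ nb b * (1 - δ) ^ t := by
  have hone : ∀ (M : ℕ) (b : Fin M → Bool) (P : (Fin M → C) → Prop),
      Ex (piW fun _ => w) (fun ω => I (P ω)) ≤ 2 ^ nb b * (1 - δ) ^ 0 := fun M b P => by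
    refine Ex_le_of (IsProb.pi fun _ => hw) fun ω _ => (I_le_one _).trans ?_
    rw [pow_zero, mul_one]; exact one_le_pow₀ one_le_two
  have hδ : 0 ≤ 1 - δ := by linarith
  induction M with
  | zero =>
    intro E b t
    cases t with
    | zero => exact hone _ _ _
    | succ t =>
      refine Ex_le_of (IsProb.pi fun _ => hw) fun ω _ => I_le_of (by positivity) ?_
      rintro ⟨s, hs, -⟩
      omega
  | succ M ih =>
    intro E b t
    have hp : IsProb (piW fun _ : Fin M => w) := IsProb.pi fun _ => hw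
    cases t with
    | zero => exact hone _ _ _
    | succ t =>
      rw [Ex_cons, nb_succ]
      obtain ⟨E', hE'⟩ : ∃ E' : C → S → ℤ,
        E' = fun c σ => E σ + if b 0 = false then vi c σ else 0 := ⟨_, rfl⟩
      have hEE : ∀ c σ, E σ ≤ E' c σ := fun c σ => by
        rw [hE']; simp only; split_ifs
        · linarith [hv c σ]
        · linarith
      have hc : ∀ c ω s, En vi E b (Fin.cons c ω) (s + 1) = En vi (E' c) (fun i => b i.succ) ω s :=
        fun c ω s => by rw [En_cons, hE']
      by_cases hk : δ ≤ kap w vi E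
      · have h2 : ∀ c, Ex (piW fun _ => w) (fun ω : Fin M → C => I (∃ s, s + (t + 1) ≤ M + 1 ∧
            δ ≤ kap w vi (En vi E b (Fin.cons c ω) s) ∧
            Alive (En vi E b (Fin.cons c ω) (s + (t + 1))))) ≤
            I (Alive (E' c)) * (2 ^ (nb fun i => b i.succ) * (1 - δ) ^ t) := by
          intro c
          refine le_trans ?_ (mul_le_mul_of_nonneg_left (ih (E' c) _ t) (I_nonneg _))
          rw [← Ex_const_mul]
          refine hp.Ex_mono fun ω => ?_
          rw [← I_and]
          refine I_mono ?_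
          rintro ⟨s, hs, -, ha⟩
          rw [← add_assoc, hc] at ha
          refine ⟨?_, 0, by omega, ?_, ?_⟩
          · refine ha.mono fun σ => ?_
            conv_lhs => rw [← En_zero (vi := vi) (E := E' c) (b := fun i => b i.succ) (ω := ω)]
            exact En_le hv (fun _ => le_rfl) (fun _ h => h) (Nat.zero_le _) σ
          · rw [En_zero]; exact hk.trans (kap_mono hw (hEE c))
          · exact ha.mono (En_le hv (fun _ => le_rfl) (fun _ h => h) (by omega))
        refine (hw.Ex_mono h2).trans ?_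
        rw [Ex_mul_const, pow_add, pow_succ (1 - δ)]
        have hX : (0 : ℝ) ≤ 2 ^ (nb fun i => b i.succ) * (1 - δ) ^ t := by positivity
        have h3 : Ex w (fun c => I (Alive (E' c))) ≤ 2 ^ (if b 0 then 1 else 0) * (1 - δ) := by
          cases hb : b 0 with
          | true =>
            refine (Ex_le_of hw fun c _ => I_le_one _).trans ?_
            simp only [if_true, pow_one]; linarith
          | false =>
            have : Ex w (fun c => I (Alive (E' c))) = 1 - kap w vi E := by
              unfold kap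
              simp only [I_not]
              rw [Ex_sub, hw.Ex_const, hE']
              simp [hb]
            rw [this]
            simp only [Bool.false_eq_true, if_false, pow_zero]; linarith
        calc _ ≤ (2 ^ (if b 0 then 1 else 0) * (1 - δ)) *
              (2 ^ (nb fun i => b i.succ) * (1 - δ) ^ t) := mul_le_mul_of_nonneg_right h3 hX
          _ = _ := by ring
      · refine Ex_le_of hw fun c _ => ?_
        refine le_trans ?_ ((ih (E' c) (fun i => b i.succ) (t + 1)).trans ?_)
        · refine hp.Ex_mono fun ω => I_mono ?_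
          rintro ⟨s, hs, hk', ha⟩
          cases s with
          | zero => rw [En_zero] at hk'; exact absurd hk' hk
          | succ s =>
            rw [hc] at hk'
            rw [show s + 1 + (t + 1) = s + (t + 1) + 1 by omega, hc] at ha
            exact ⟨s, by omega, hk', ha⟩
        · refine mul_le_mul_of_nonneg_right (pow_le_pow_right₀ one_le_two (by omega)) ?_
          positivity

theorem hazard (hw : IsProb w) (hv : ∀ c σ, 0 ≤ vi c σ) {δ : ℝ} (h1 : δ ≤ 1 / 2)
    {M : ℕ} (E : S → ℤ) (b : Fin M → Bool) {t : ℕ} (ht : 1 ≤ t) :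
    Ex (piW fun _ => w) (fun ω : Fin M → C => I (t ≤ Tm vi E b ω ∧
      δ ≤ kap w vi (En vi E b ω (Tm vi E b ω - t)))) ≤ 2 ^ nb b * (1 - δ) ^ (t - 1) := by
  refine le_trans ((IsProb.pi fun _ => hw).Ex_mono fun ω => I_mono ?_)
    (hazard_aux hw hv h1 M E b (t - 1))
  rintro ⟨h2, h3⟩
  have h4 := Tm_le (vi := vi) (E := E) (b := b) (ω := ω)
  refine ⟨_, by omega, h3, ?_⟩
  rw [show Tm vi E b ω - t + (t - 1) = Tm vi E b ω - 1 by omega]
  exact alive_of_le_Tm hv le_rfl (by omega)

/-- the probability of a delay caused by an independent extra constraint -/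
theorem delay_le {C' : Type*} [Fintype C'] (hw : IsProb w) {w' : C' → ℝ} (hw' : IsProb w')
    (hv : ∀ c σ, 0 ≤ vi c σ) (vx : C' → S → ℤ) {M : ℕ} (E : S → ℤ) (b : Fin M → Bool) {t : ℕ}
    (ht : 1 ≤ t) :
    Ex w' (fun c => Ex (piW fun _ => w) fun ω : Fin M → C =>
      I (Tm vi (fun σ => E σ + vx c σ) b ω + t ≤ Tm vi E b ω)) ≤
    Ex (piW fun _ => w) fun ω : Fin M → C =>
      I (t ≤ Tm vi E b ω) * kap w' vx (En vi E b ω (Tm vi E b ω - t)) := by
  rw [Ex_comm]
  refine (IsProb.pi fun _ => hw).Ex_mono fun ω => ?_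
  unfold kap
  rw [← Ex_const_mul]
  refine hw'.Ex_mono fun c => ?_
  rw [← I_and]
  exact I_mono (dead_of_delay hv ht)

/-- chaining the delays of several extra constraints -/
theorem chain {ι C' : Type*} [Fintype ι] [DecidableEq ι] [Fintype C'] {Ω : Type*} [Fintype Ω]
    {P : Ω → ℝ} (hP : IsProb P) {w' : C' → ℝ} (hw' : IsProb w') (vx : C' → S → ℤ)
    (τ : (S → ℤ) → Ω → ℕ) (E : S → ℤ) (J : Finset ι) (t : ℕ) (β : ℝ)
    (h : ∀ A ⊆ J, ∀ x : ι → C', (∀ i, w' (x i) ≠ 0) →
      Ex w' (fun c => Ex P fun ω => I (τ (fun σ => (E σ + ∑ j ∈ A, vx (x j) σ) + vx c σ) ω + (t + 1) ≤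
        τ (fun σ => E σ + ∑ j ∈ A, vx (x j) σ) ω)) ≤ β) :
    ∀ A ⊆ J, Ex (piW fun _ => w') (fun x : ι → C' => Ex P fun ω =>
      I (τ (fun σ => E σ + ∑ j ∈ A, vx (x j) σ) ω + (A.card * t + 1) ≤ τ E ω)) ≤ A.card * β := by
  have hp : IsProb (piW fun _ : ι => w') := IsProb.pi fun _ => hw'
  intro A
  induction A using Finset.induction_on with
  | empty =>
    intro _
    refine Ex_le_of hp fun x _ => Ex_le_of hP fun ω _ => ?_
    rw [I_of_not (by simp)]; simp
  | insert i A hi ih =>
    intro hA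
    have hA' : A ⊆ J := (subset_insert _ _).trans hA
    have h1 : Ex (piW fun _ => w') (fun x : ι → C' => Ex P fun ω =>
        I (τ (fun σ => (E σ + ∑ j ∈ A, vx (x j) σ) + vx (x i) σ) ω + (t + 1) ≤
          τ (fun σ => E σ + ∑ j ∈ A, vx (x j) σ) ω)) ≤ β := by
      rw [Ex_resample (fun _ => hw') i]
      refine Ex_le_of hp fun x hx => le_trans (le_of_eq ?_) (h A hA' x (piW_ne_zero hx))
      refine Ex_congr fun c => ?_
      have e : ∀ σ, ∑ j ∈ A, vx (update x i c j) σ = ∑ j ∈ A, vx (x j) σ := fun σ =>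
        sum_congr rfl fun j hj => by rw [update_of_ne (ne_of_mem_of_not_mem hj hi)]
      simp only [e, update_self]
    rw [card_insert_of_notMem hi, Nat.cast_succ, add_mul (A.card : ℝ), one_mul]
    refine le_trans ?_ (add_le_add (ih hA') h1)
    rw [← Ex_add]
    refine hp.Ex_mono fun x => ?_
    rw [← Ex_add]
    refine hP.Ex_mono fun ω => I_le_add fun h2 => ?_
    have e : (fun σ => E σ + ∑ j ∈ insert i A, vx (x j) σ) =
        fun σ => (E σ + ∑ j ∈ A, vx (x j) σ) + vx (x i) σ := by
      ext σ; rw [sum_insert hi]; ring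
    rw [e, add_mul, one_mul] at h2
    omega
end

end Crest.Agent.R153
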