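import Crest.Agent.Lib.PrimrecRat.Rat

/-! Row 153: rational approximations (from above and from below) of nested power means. -/

set_option autoImplicit false
open Filter Topology Finset Crest.Agent.PrimrecRat

namespace Crest.Agent.R153.Num

section Prim
variable {α : Type} [Primcodable α]

@[fun_prop] theorem pr_sum_range {f : α → ℕ} {g : α → ℕ → ℚ} (hf : Primrec f)
    (hg : Primrec fun p : α × ℕ => g p.1 p.2) : Primrec fun x => ∑ i ∈ range (f x), g x i :=
  (pr_rat_sum (pr_map (pr_range hf) hg)).of_eq fun _ => rfl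

@[fun_prop] theorem pr_prod_range {f : α → ℕ} {g : α → ℕ → ℚ} (hf : Primrec f)
    (hg : Primrec fun p : α × ℕ => g p.1 p.2) : Primrec fun x => ∏ i ∈ range (f x), g x i :=
  (pr_rat_prod (pr_map (pr_range hf) hg)).of_eq fun _ => rfl

@[fun_prop] theorem pr_rat_max {f g : α → ℚ} (hf : Primrec f) (hg : Primrec g) :
    Primrec fun x => max (f x) (g x) :=
  (pr_ite (pp_rat_le hf hg) hg hf).of_eq fun _ => (max_def _ _).symm

@[fun_prop] theorem pr_rat_min {f g : α → ℚ} (hf : Primrec f) (hg : Primrec g) :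
    Primrec fun x => min (f x) (g x) :=
  (pr_ite (pp_rat_le hf hg) hf hg).of_eq fun _ => (min_def _ _).symm
end Prim

/-- approximation of the `j`-th root of `q` from below (`u = 0`) or from above (`u = 1`) -/
def rt (u j N : ℕ) (q : ℚ) : ℚ :=
  ((Nat.findGreatest (fun i => ((i : ℚ) / (N + 1)) ^ j ≤ q) ((N + 1) * (q.num.natAbs + 1)) + u : ℕ) :
    ℚ) / (N + 1)

@[fun_prop] theorem pr_rt {α : Type} [Primcodable α] {u j N : α → ℕ} {q : α → ℚ} (hu : Primrec u)
    (hj : Primrec j) (hN : Primrec N) (hq : Primrec q) :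
    Primrec fun x => rt (u x) (j x) (N x) (q x) := by
  have h : PrimrecRel fun (x : α) (i : ℕ) => ((i : ℚ) / (N x + 1)) ^ j x ≤ q x := by
    unfold PrimrecRel; fun_prop
  have h1 := Primrec.nat_findGreatest (f := fun x => (N x + 1) * ((q x).num.natAbs + 1))
    (by fun_prop) h
  unfold rt
  fun_prop

theorem rt_nonneg (u j N : ℕ) (q : ℚ) : 0 ≤ rt u j N q := by unfold rt; positivity

theorem rt_spec {j : ℕ} (hj : 0 < j) (N : ℕ) {q : ℚ} (hq : 0 ≤ q) :
    (rt 0 j N q : ℝ) ≤ (q : ℝ) ^ (j : ℝ)⁻¹ ∧ (q : ℝ) ^ (j : ℝ)⁻¹ ≤ rt 1 j N q ∧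
      (rt 1 j N q : ℝ) = rt 0 j N q + 1 / ((N : ℝ) + 1) := by
  have hq' : (0 : ℝ) ≤ q := by exact_mod_cast hq
  have hN : (0 : ℝ) < (N : ℝ) + 1 := by positivity
  set P : ℕ → Prop := fun i => ((i : ℚ) / (N + 1)) ^ j ≤ q with hP
  set M := (N + 1) * (q.num.natAbs + 1) with hM
  set c := Nat.findGreatest P M with hc
  have e0 : (rt 0 j N q : ℝ) = c / ((N : ℝ) + 1) := by simp [rt, hc, hP, hM]
  have e1 : (rt 1 j N q : ℝ) = ((c : ℝ) + 1) / ((N : ℝ) + 1) := by simp [rt, hc, hP, hM]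
  have hP' : ∀ i, P i ↔ ((i : ℝ) / ((N : ℝ) + 1)) ^ j ≤ q := fun i => by
    rw [hP]; simp only
    rw [← Rat.cast_le (K := ℝ)]; push_cast; rfl
  refine ⟨?_, ?_, by rw [e0, e1, add_div]⟩
  · have h0 : P c := Nat.findGreatest_spec (Nat.zero_le M) (by
      rw [hP']; simpa [hj.ne'] using hq')
    rw [e0, Real.le_rpow_inv_iff_of_pos (by positivity) hq' (by exact_mod_cast hj),
      Real.rpow_natCast]
    exact (hP' c).1 h0
  · rw [e1, Real.rpow_inv_le_iff_of_pos hq' (by positivity) (by exact_mod_cast hj),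
      Real.rpow_natCast]
    rcases (Nat.findGreatest_le (P := P) M).eq_or_lt with h | h
    · have h1 : (q : ℝ) ≤ q.num.natAbs := by
        have := (le_abs_self q).trans (abs_le_natAbs_num q)
        exact_mod_cast this
      have h2 : (q.num.natAbs : ℝ) + 1 ≤ ((c : ℝ) + 1) / ((N : ℝ) + 1) := by
        rw [le_div_iff₀ hN, hc, h, hM]; push_cast; linarith
      have h3 : (0 : ℝ) ≤ q.num.natAbs := by positivity
      calc (q : ℝ) ≤ ((c : ℝ) + 1) / ((N : ℝ) + 1) := by linarith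
        _ ≤ _ := le_self_pow₀ (by linarith) hj.ne'
    · have h1 : ¬ P (c + 1) := Nat.findGreatest_is_greatest (Nat.lt_succ_self c) h
      rw [hP'] at h1
      push_cast at h1
      exact (not_le.1 h1).le

theorem rt_tendsto {u : ℕ} (hu : u ≤ 1) {j : ℕ} (hj : 0 < j) {q : ℕ → ℚ} (hq : ∀ N, 0 ≤ q N) {x : ℝ}
    (h : Tendsto (fun N => (q N : ℝ)) atTop (𝓝 x)) :
    Tendsto (fun N => (rt u j N (q N) : ℝ)) atTop (𝓝 (x ^ (j : ℝ)⁻¹)) := by
  have h1 := h.rpow_const (p := (j : ℝ)⁻¹) (Or.inr (by positivity))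
  have h2 := tendsto_one_div_add_atTop_nhds_zero_nat (𝕜 := ℝ)
  have h3 := h1.sub h2
  have h4 := h1.add h2
  rw [sub_zero] at h3
  rw [add_zero] at h4
  refine tendsto_of_tendsto_of_tendsto_of_le_of_le h3 h4 (fun N => ?_) fun N => ?_
  all_goals
    obtain ⟨a, b, c⟩ := rt_spec hj N (hq N)
    have : (0 : ℝ) ≤ 1 / ((N : ℝ) + 1) := by positivity
    obtain rfl | rfl : u = 0 ∨ u = 1 := by omega
    all_goals simp only; linarith

/-- the rational tree recursion -/
def tree (u N T a B : ℕ) (leaf : List ℕ → ℚ) : ℕ → List ℕ → ℚ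
  | 0, p => rt u T N (leaf p)
  | d + 1, p => rt u (a + p.length) N
      ((∑ x ∈ range B, tree u N T a B leaf d (p ++ [x]) ^ (a + p.length)) / B)

/-- the real tree recursion -/
noncomputable def treeR (T a B : ℕ) (leaf : List ℕ → ℝ) : ℕ → List ℕ → ℝ
  | 0, p => leaf p ^ (T : ℝ)⁻¹
  | d + 1, p => ((∑ x ∈ range B, treeR T a B leaf d (p ++ [x]) ^ (a + p.length)) / B) ^
      ((a + p.length : ℕ) : ℝ)⁻¹

theorem pr_tree {α : Type} [Primcodable α] {u N T a B : α → ℕ} {leaf : α → List ℕ → ℚ}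
    (hu : Primrec u) (hN : Primrec N) (hT : Primrec T) (ha : Primrec a) (hB : Primrec B)
    (hl : Primrec fun p : α × List ℕ => leaf p.1 p.2) :
    Primrec fun x : α × ℕ × List ℕ =>
      tree (u x.1) (N x.1) (T x.1) (a x.1) (B x.1) (leaf x.1) x.2.1 x.2.2 := by
  refine Primrec.nat_omega_rec' _ (m := fun x => x.2.1)
    (l := fun x => if x.2.1 = 0 then [] else
      (List.range (B x.1)).map fun y => (x.1, x.2.1 - 1, x.2.2 ++ [y]))
    (g := fun x L => some (if x.2.1 = 0 then rt (u x.1) (T x.1) (N x.1) (leaf x.1 x.2.2) else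
      rt (u x.1) (a x.1 + x.2.2.length) (N x.1)
        ((L.map fun y => y ^ (a x.1 + x.2.2.length)).sum / B x.1)))
    (by fun_prop) (by fun_prop) ?_ ?_ ?_
  · refine Primrec.option_some.comp ?_
    have h1 : Primrec fun p : (α × ℕ × List ℕ) × List ℚ => leaf p.1.1 p.1.2.2 :=
      hl.comp (f := fun p : α × List ℕ => leaf p.1 p.2)
        (g := fun p : (α × ℕ × List ℕ) × List ℚ => (p.1.1, p.1.2.2)) (by fun_prop)
    fun_prop
  · rintro ⟨x, d, p⟩ b hb
    simp only at hb ⊢
    split_ifs at hb with h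
    · simp at hb
    · obtain ⟨y, -, rfl⟩ := List.mem_map.1 hb
      simp only; omega
  · rintro ⟨x, d, p⟩
    cases d with
    | zero => simp [tree]
    | succ d =>
      simp only [Nat.add_eq_zero_iff, one_ne_zero, and_false, if_false, List.map_map, tree]
      rfl

theorem tree_nonneg (u N T a B : ℕ) (leaf : List ℕ → ℚ) (d : ℕ) (p : List ℕ) :
    0 ≤ tree u N T a B leaf d p := by
  cases d <;> exact rt_nonneg _ _ _ _

theorem treeR_bounds {T a B : ℕ} (hT : 0 < T) (hB : 0 < B) {leaf : List ℕ → ℝ} {L : ℝ} (hL : 0 < L)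
    (h : ∀ p, L ≤ leaf p ∧ leaf p ≤ 1) (d : ℕ) (p : List ℕ) (hp : p ≠ []) :
    L ≤ treeR T a B leaf d p ∧ treeR T a B leaf d p ≤ 1 := by
  induction d generalizing p with
  | zero =>
    obtain ⟨h1, h2⟩ := h p
    refine ⟨h1.trans ?_, Real.rpow_le_one (hL.le.trans h1) h2 (by positivity)⟩
    exact Real.self_le_rpow_of_le_one (hL.le.trans h1) h2
      (inv_le_one_of_one_le₀ (by exact_mod_cast hT))
  | succ d ih =>
    have hj : 0 < a + p.length := by have := List.length_pos_iff.2 hp; omega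
    have hj' : (0 : ℝ) < (a + p.length : ℕ) := by exact_mod_cast hj
    have hB' : (0 : ℝ) < B := by exact_mod_cast hB
    have ih' := fun x => ih (p ++ [x]) (by simp)
    have h1 : L ^ (a + p.length) ≤
        (∑ x ∈ range B, treeR T a B leaf d (p ++ [x]) ^ (a + p.length)) / B := by
      rw [le_div_iff₀ hB']
      have := sum_le_sum (s := range B) fun x _ => pow_le_pow_left₀ hL.le (ih' x).1 (a + p.length)
      simpa [mul_comm] using this
    have h2 : (∑ x ∈ range B, treeR T a B leaf d (p ++ [x]) ^ (a + p.length)) / B ≤ 1 := by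
      rw [div_le_one hB']
      have := sum_le_sum (s := range B) fun x _ =>
        pow_le_one₀ (n := a + p.length) (hL.le.trans (ih' x).1) (ih' x).2
      simpa using this
    have h0 := (pow_pos hL _).le.trans h1
    simp only [treeR]
    refine ⟨?_, Real.rpow_le_one h0 h2 (by positivity)⟩
    rw [Real.le_rpow_inv_iff_of_pos hL.le h0 hj', Real.rpow_natCast]
    exact h1

theorem treeR_nonneg (T a B : ℕ) {leaf : List ℕ → ℝ} (h : ∀ p, 0 ≤ leaf p) (d : ℕ) (p : List ℕ) :
    0 ≤ treeR T a B leaf d p := by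
  induction d generalizing p with
  | zero => exact Real.rpow_nonneg (h p) _
  | succ d ih =>
    exact Real.rpow_nonneg (div_nonneg (sum_nonneg fun x _ => pow_nonneg (ih _) _)
      (by positivity)) _

theorem tree_spec {T : ℕ} (hT : 0 < T) (N a B : ℕ) {leaf : List ℕ → ℚ} (h : ∀ p, 0 ≤ leaf p)
    (d : ℕ) (p : List ℕ) (hp : p ≠ []) :
    (tree 0 N T a B leaf d p : ℝ) ≤ treeR T a B (fun p => leaf p) d p ∧
      treeR T a B (fun p => leaf p) d p ≤ tree 1 N T a B leaf d p := by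
  induction d generalizing p with
  | zero => exact ⟨(rt_spec hT N (h p)).1, (rt_spec hT N (h p)).2.1⟩
  | succ d ih =>
    have hj : 0 < a + p.length := by have := List.length_pos_iff.2 hp; omega
    have ih' := fun x => ih (p ++ [x]) (by simp)
    have h0 : ∀ u, 0 ≤ (∑ x ∈ range B, tree u N T a B leaf d (p ++ [x]) ^ (a + p.length)) / B :=
      fun u => div_nonneg (sum_nonneg fun x _ => pow_nonneg (tree_nonneg ..) _) (by positivity)
    have h1 := fun x => treeR_nonneg T a B (leaf := fun p => leaf p)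
      (fun p => by exact_mod_cast h p) d (p ++ [x])
    simp only [tree, treeR]
    constructor
    · refine (rt_spec hj N (h0 0)).1.trans (Real.rpow_le_rpow (by exact_mod_cast h0 0) ?_
        (by positivity))
      push_cast
      refine div_le_div_of_nonneg_right (sum_le_sum fun x _ => pow_le_pow_left₀ ?_ (ih' x).1 _)
        (by positivity)
      exact_mod_cast tree_nonneg ..
    · refine le_trans (Real.rpow_le_rpow (div_nonneg (sum_nonneg fun x _ => pow_nonneg (h1 x) _)
        (by positivity)) ?_ (by positivity)) (rt_spec hj N (h0 1)).2.1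
      push_cast
      exact div_le_div_of_nonneg_right (sum_le_sum fun x _ => pow_le_pow_left₀ (h1 x) (ih' x).2 _)
        (by positivity)

theorem tree_tendsto {u : ℕ} (hu : u ≤ 1) {T : ℕ} (hT : 0 < T) (a B : ℕ) {leaf : List ℕ → ℚ}
    (h : ∀ p, 0 ≤ leaf p) (d : ℕ) (p : List ℕ) (hp : p ≠ []) :
    Tendsto (fun N => (tree u N T a B leaf d p : ℝ)) atTop
      (𝓝 (treeR T a B (fun p => leaf p) d p)) := by
  induction d generalizing p with
  | zero => exact rt_tendsto hu hT (fun _ => h p) tendsto_const_nhds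
  | succ d ih =>
    have hj : 0 < a + p.length := by have := List.length_pos_iff.2 hp; omega
    refine rt_tendsto hu hj (fun N => div_nonneg (sum_nonneg fun x _ =>
      pow_nonneg (tree_nonneg ..) _) (by positivity)) ?_
    push_cast
    exact (tendsto_finsetSum _ fun x _ => (ih (p ++ [x]) (by simp)).pow _).div_const _

/-- approximation of `log q`, `0 < q ≤ 1`, from below (`u = 0`) or from above (`u = 1`) -/
def lg (u N : ℕ) (q : ℚ) : ℚ :=
  -(∑ i ∈ range N, (1 - q) ^ (i + 1) / (i + 1)) + (2 * u - 1) * ((1 - q) ^ (N + 1) / q)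

@[fun_prop] theorem pr_lg {α : Type} [Primcodable α] {u N : α → ℕ} {q : α → ℚ} (hu : Primrec u)
    (hN : Primrec N) (hq : Primrec q) : Primrec fun x => lg (u x) (N x) (q x) := by
  unfold lg
  fun_prop

theorem lg_spec (N : ℕ) {q : ℚ} (h0 : 0 < q) (h1 : q ≤ 1) :
    (lg 0 N q : ℝ) ≤ Real.log q ∧ Real.log q ≤ lg 1 N q ∧
      (lg 1 N q : ℝ) = lg 0 N q + 2 * ((1 - q) ^ (N + 1) / q) := by
  have h0' : (0 : ℝ) < q := by exact_mod_cast h0
  have h1' : (q : ℝ) ≤ 1 := by exact_mod_cast h1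
  have e : |1 - (q : ℝ)| = 1 - q := abs_of_nonneg (by linarith)
  have := Real.abs_log_sub_add_sum_range_le (x := 1 - (q : ℝ)) (by rw [e]; linarith) N
  rw [e, sub_sub_cancel, abs_le] at this
  unfold lg
  push_cast
  refine ⟨by linarith [this.1], by linarith [this.2], by ring⟩

theorem lg_tendsto {u : ℕ} (hu : u ≤ 1) {L : ℚ} (hL : 0 < L) {q : ℕ → ℚ}
    (hq : ∀ N, L ≤ q N ∧ q N ≤ 1) {x : ℝ} (h : Tendsto (fun N => (q N : ℝ)) atTop (𝓝 x)) :
    Tendsto (fun N => (lg u N (q N) : ℝ)) atTop (𝓝 (Real.log x)) := by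
  have hL' : (0 : ℝ) < L := by exact_mod_cast hL
  have hq1 : ∀ N, (L : ℝ) ≤ q N := fun N => by exact_mod_cast (hq N).1
  have hq2 : ∀ N, (q N : ℝ) ≤ 1 := fun N => by exact_mod_cast (hq N).2
  have hx : 0 < x := hL'.trans_le (ge_of_tendsto' h hq1)
  have h1 := h.log hx.ne'
  have h2 : Tendsto (fun N : ℕ => 2 * ((1 - (L : ℝ)) ^ (N + 1) / L)) atTop (𝓝 0) := by
    have := ((tendsto_pow_atTop_nhds_zero_of_lt_one (r := 1 - (L : ℝ))
      (by linarith [hq1 0, hq2 0]) (by linarith)).comp (tendsto_add_atTop_nat 1)).div_const (L : ℝ)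
    simpa using this.const_mul 2
  have h3 := h1.sub h2
  have h4 := h1.add h2
  rw [sub_zero] at h3
  rw [add_zero] at h4
  refine tendsto_of_tendsto_of_tendsto_of_le_of_le h3 h4 (fun N => ?_) fun N => ?_
  all_goals
    obtain ⟨a, b, c⟩ := lg_spec N (hL.trans_le (hq N).1) (hq N).2
    have h5 : (1 - (q N : ℝ)) ^ (N + 1) / q N ≤ (1 - (L : ℝ)) ^ (N + 1) / L :=
      div_le_div₀ (pow_nonneg (by linarith [hq1 N, hq2 N]) _)
        (pow_le_pow_left₀ (by linarith [hq2 N]) (by linarith [hq1 N]) _) hL' (hq1 N)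
    have h6 : 0 ≤ (1 - (L : ℝ)) ^ (N + 1) / L :=
      div_nonneg (pow_nonneg (by linarith [hq1 N, hq2 N]) _) hL'.le
    obtain rfl | rfl : u = 0 ∨ u = 1 := by omega
    all_goals simp only; linarith

/-- the mean over the first level of the logarithm of the nested power means -/
noncomputable def LTR (T a r B : ℕ) (leaf : List ℕ → ℝ) : ℝ :=
  (∑ y ∈ range B, T * Real.log (treeR T a B leaf r [y])) / B

/-- its rational approximations -/
def LT (u N T a r B : ℕ) (L : ℚ) (leaf : List ℕ → ℚ) : ℚ :=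
  (∑ y ∈ range B, T * lg u N (max L (min (tree u N T a B leaf r [y]) 1))) / B

theorem pr_LT {α : Type} [Primcodable α] {u N T a r B : α → ℕ} {L : α → ℚ}
    {leaf : α → List ℕ → ℚ}
    (hu : Primrec u) (hN : Primrec N) (hT : Primrec T) (ha : Primrec a) (hr : Primrec r)
    (hB : Primrec B) (hL : Primrec L) (hl : Primrec fun p : α × List ℕ => leaf p.1 p.2) :
    Primrec fun x => LT (u x) (N x) (T x) (a x) (r x) (B x) (L x) (leaf x) := by
  have h1 := (pr_tree hu hN hT ha hB hl).comp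
    (g := fun p : α × ℕ => (p.1, r p.1, [p.2])) (by fun_prop)
  unfold LT
  refine pr_rat_div (pr_sum_range hB ?_) (by fun_prop)
  refine pr_rat_mul (by fun_prop) (pr_lg (by fun_prop) (by fun_prop) ?_)
  exact pr_rat_max (by fun_prop) (pr_rat_min h1 (by fun_prop))

theorem LTR_bounds {T B : ℕ} (hT : 0 < T) (hB : 0 < B) (a r : ℕ) {leaf : List ℕ → ℝ} {L : ℝ}
    (hL : 0 < L) (h : ∀ p, L ≤ leaf p ∧ leaf p ≤ 1) :
    T * Real.log L ≤ LTR T a r B leaf ∧ LTR T a r B leaf ≤ 0 := by
  have hB' : (0 : ℝ) < B := by exact_mod_cast hB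
  have h1 := fun y => treeR_bounds (a := a) hT hB hL h r [y] (by simp)
  unfold LTR
  constructor
  · rw [le_div_iff₀ hB']
    have := sum_le_sum (s := range B) fun y _ =>
      mul_le_mul_of_nonneg_left (Real.log_le_log hL (h1 y).1) (Nat.cast_nonneg T)
    simpa [mul_comm] using this
  · exact div_nonpos_of_nonpos_of_nonneg (sum_nonpos fun y _ => mul_nonpos_of_nonneg_of_nonpos
      (Nat.cast_nonneg T) (Real.log_nonpos (hL.le.trans (h1 y).1) (h1 y).2)) hB'.le

theorem LT_spec {T B : ℕ} (hT : 0 < T) (hB : 0 < B) (N a r : ℕ) {leaf : List ℕ → ℚ} {L : ℚ}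
    (hL : 0 < L) (h : ∀ p, L ≤ leaf p ∧ leaf p ≤ 1) :
    (LT 0 N T a r B L leaf : ℝ) ≤ LTR T a r B (fun p => leaf p) ∧
      LTR T a r B (fun p => leaf p) ≤ LT 1 N T a r B L leaf := by
  have hL' : (0 : ℝ) < L := by exact_mod_cast hL
  have hL1 : L ≤ 1 := (h []).1.trans (h []).2
  have h1 := fun y => treeR_bounds (a := a) (leaf := fun p => leaf p) hT hB hL'
    (fun p => ⟨by exact_mod_cast (h p).1, by exact_mod_cast (h p).2⟩) r [y] (by simp)
  have h2 := fun y => tree_spec hT N a B (fun p => hL.le.trans (h p).1) r [y] (by simp)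
  have h3 := fun u y => lg_spec N (q := max L (min (tree u N T a B leaf r [y]) 1))
    (hL.trans_le (le_max_left _ _)) (max_le hL1 (min_le_right _ _))
  unfold LT LTR
  push_cast
  constructor
  · refine div_le_div_of_nonneg_right (sum_le_sum fun y _ => mul_le_mul_of_nonneg_left
      ((h3 0 y).1.trans (Real.log_le_log ?_ ?_)) (Nat.cast_nonneg T)) (Nat.cast_nonneg B)
    · push_cast; exact hL'.trans_le (le_max_left _ _)
    · push_cast; exact max_le (h1 y).1 ((min_le_left _ _).trans (h2 y).1)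
  · refine div_le_div_of_nonneg_right (sum_le_sum fun y _ => mul_le_mul_of_nonneg_left
      (le_trans (Real.log_le_log (hL'.trans_le (h1 y).1) ?_) (h3 1 y).2.1) (Nat.cast_nonneg T))
      (Nat.cast_nonneg B)
    push_cast; exact le_max_of_le_right (le_min (h2 y).2 (h1 y).2)

theorem LT_tendsto {u : ℕ} (hu : u ≤ 1) {T B : ℕ} (hT : 0 < T) (hB : 0 < B) (a r : ℕ)
    {leaf : List ℕ → ℚ} {L : ℚ} (hL : 0 < L) (h : ∀ p, L ≤ leaf p ∧ leaf p ≤ 1) :
    Tendsto (fun N => (LT u N T a r B L leaf : ℝ)) atTop (𝓝 (LTR T a r B (fun p => leaf p))) := by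
  have hL' : (0 : ℝ) < L := by exact_mod_cast hL
  have hL1 : L ≤ 1 := (h []).1.trans (h []).2
  have h1 := fun y => treeR_bounds (a := a) (leaf := fun p => leaf p) hT hB hL'
    (fun p => ⟨by exact_mod_cast (h p).1, by exact_mod_cast (h p).2⟩) r [y] (by simp)
  unfold LT LTR
  push_cast
  refine (tendsto_finsetSum _ fun y _ => Tendsto.const_mul _ ?_).div_const _
  refine lg_tendsto hu hL (fun N => ⟨le_max_left _ _, max_le hL1 (min_le_right _ _)⟩) ?_
  have h2 := (tendsto_const_nhds (x := (L : ℝ))).max ((tree_tendsto hu hT a B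
    (fun p => hL.le.trans (h p).1) r [y] (by simp)).min (tendsto_const_nhds (x := (1 : ℝ))))
  rw [min_eq_left (h1 y).2, max_eq_right (h1 y).1] at h2
  push_cast
  exact h2

end Crest.Agent.R153.Num
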