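import Crest.Agent.R153.Boot

/-! The variance bound for the hitting time. -/

set_option autoImplicit false
open Finset Function Crest.ProbabilityR.RandomSAT

namespace Crest.Agent.R153
open Crest.Agent.R16

variable {k n : ℕ}

theorem satProb_eq_Ex (k n m : ℕ) :
    satProb k n m = Ex (PW k m (univ : Finset (Fin n))) fun F => I (Satisfiable F) := by
  classical
  unfold PW
  rw [Cl_univ, Ex_unif_univ, ← card_filter_eq_sum_I]
  unfold satProb Crest.FinProb.uniformProb
  rw [div_eq_inv_mul]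
  congr

theorem En_eq_sum {M s : ℕ} (h : s ≤ M) (j : ℤ) (ω : Fin M → Clause k n) (σ : Fin n → Bool) :
    En vi (fun _ => j) (fun _ => false) ω s σ = j + ∑ i : Fin s, vi (ω (Fin.castLE h i)) σ := by
  unfold En
  congr 1
  simp only [and_true]
  rw [← sum_filter]
  symm
  refine sum_bij (fun i _ => Fin.castLE h i) (fun i _ => by simp) (fun i _ i' _ hi => by simpa using hi)
    (fun i hi => ⟨⟨i.val, (mem_filter.1 hi).2⟩, mem_univ _, rfl⟩) fun _ _ => rfl

theorem alive_zero_iff {m : ℕ} (F : Fin m → Clause k n) :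
    (∃ σ, (0 : ℤ) + ∑ i, vi (F i) σ ≤ 0) ↔ Satisfiable F := by
  refine exists_congr fun σ => ?_
  rw [zero_add]
  constructor
  · intro h j
    have h1 := (single_le_sum (f := fun i => vi (F i) σ) (fun i _ => vi_nonneg _ _)
      (mem_univ j)).trans h
    by_contra h2
    have h3 : vi (F j) σ = 1 := if_neg h2
    simp only [h3] at h1
    omega
  · intro h
    refine le_of_eq (sum_eq_zero fun j _ => ?_)
    exact if_pos (h j)

theorem Ex_lt_Tm_zero (hn : k ≤ n) {M s : ℕ} (h : s ≤ M) :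
    Ex (PW k M (univ : Finset (Fin n))) (fun ω => I (s < Tm vi (fun _ => 0) (fun _ => false) ω)) =
      satProb k n s := by
  rw [satProb_eq_Ex, ← Ex_castLE (isProb_unif (Cl_nonempty (by simpa using hn))) M s h]
  refine Ex_congr fun ω => I_congr ?_
  rw [lt_Tm_iff vi_nonneg, ← alive_zero_iff]
  simp only [Alive, En_eq_sum h]
  exact and_iff_right (by omega)

theorem satProb_nonneg (k n m : ℕ) : 0 ≤ satProb k n m := by
  unfold satProb Crest.FinProb.uniformProb
  positivity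

theorem satProb_le (hn : k ≤ n) (m : ℕ) : satProb k n m ≤ 2 ^ n * (1 - (1 / 2) ^ k) ^ m := by
  classical
  have hku : k ≤ (univ : Finset (Fin n)).card := by simpa using hn
  have hw := isProb_unif (Cl_nonempty hku)
  have h1 : ∀ σ : Fin n → Bool,
      Ex (unif (Cl k (univ : Finset (Fin n)))) (fun c => I (ClauseSat σ c)) ≤ 1 - (1 / 2) ^ k := by
    intro σ
    have h2 : (1 / 2 : ℝ) ^ k ≤ Ex (unif (Cl k univ)) fun c => I (¬ ClauseSat σ c) := by
      rw [Ex_unif_I, card_Cl]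
      have h3 : (Inj k (univ : Finset (Fin n))).card ≤
          ((Cl k univ).filter fun c => ¬ ClauseSat σ c).card := by
        refine card_le_card_of_injOn (fun f => (f, fun i => !σ (f.1 i))) (fun f _ => ?_)
          (fun f _ g _ h => congrArg Prod.fst h)
        rw [coe_filter]
        refine ⟨mem_Cl.2 fun i => mem_univ _, ?_⟩
        rintro ⟨i, hi⟩
        simp at hi
      rw [card_Inj] at h3
      have h4 : (0 : ℝ) < (univ : Finset (Fin n)).card.descFactorial k := by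
        exact_mod_cast Nat.descFactorial_pos.2 hku
      have h5 : (((univ : Finset (Fin n)).card.descFactorial k : ℕ) : ℝ) ≤
          ((Cl k univ).filter fun c => ¬ ClauseSat σ c).card := by exact_mod_cast h3
      rw [le_div_iff₀ (by push_cast; positivity)]
      refine le_trans (le_of_eq ?_) h5
      push_cast
      rw [one_div, inv_pow]
      field_simp
    simp only [I_not] at h2
    rw [Ex_sub, hw.Ex_const] at h2
    linarith
  rw [satProb_eq_Ex]
  calc _ ≤ Ex (PW k m univ) fun F => ∑ σ : Fin n → Bool, ∏ j, I (ClauseSat σ (F j)) := by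
        refine (isProb_PW m hku).Ex_mono fun F => I_le_of ?_ ?_
        · exact sum_nonneg fun σ _ => prod_nonneg fun j _ => I_nonneg _
        · rintro ⟨σ, hσ⟩
          refine le_trans (le_of_eq ?_) (single_le_sum (f := fun σ : Fin n → Bool =>
            ∏ j, I (ClauseSat σ (F j))) (fun σ _ => prod_nonneg fun j _ => I_nonneg _) (mem_univ σ))
          exact (prod_eq_one fun j _ => I_of (hσ j)).symm
    _ ≤ ∑ σ : Fin n → Bool, (1 - (1 / 2 : ℝ) ^ k) ^ m := by
        rw [Ex_sum]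
        refine sum_le_sum fun σ _ => ?_
        unfold PW
        rw [Ex_pi_prod (fun _ : Fin m => unif (Cl k univ)) fun _ c => I (ClauseSat σ c),
          prod_const, card_univ, Fintype.card_fin]
        exact pow_le_pow_left₀ (hw.Ex_nonneg fun _ => I_nonneg _) (h1 σ) m
    _ = _ := by simp

theorem cast_eq_sum (D N : ℕ) (h : D ≤ N) : (D : ℝ) = ∑ t ∈ range N, I (t < D) := by
  rw [← sum_subset (range_subset_range.2 h)]
  · rw [sum_congr rfl fun t ht => I_of (mem_range.1 ht)]; simp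
  · intro t _ ht
    rw [I_of_not (by simpa using ht)]

theorem var_finite (hk : 3 ≤ k) (C₀ : ℝ) : ∃ K : ℝ, 0 ≤ K ∧ ∀ n M : ℕ, k ≤ n →
    (M : ℝ) + 1 ≤ C₀ * n →
    ∑ m ∈ range (M + 1), (2 * (m : ℝ) + 1) * satProb k n m -
      (∑ m ∈ range (M + 1), satProb k n m) ^ 2 ≤ M * K := by
  obtain ⟨K, hK, h⟩ := delay_sq hk C₀
  refine ⟨K, hK, fun n M hn hM => ?_⟩
  have hw := isProb_unif (Cl_nonempty (k := k) (U := (univ : Finset (Fin n))) (by simpa using hn))
  have h1 := efron_stein hw M (fun ω => (Tm vi (fun _ => 0) (fun _ => false) ω : ℝ))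
    (fun i ω => (Tm vi (fun _ => 0) (fun i' => decide (i' = i)) ω : ℝ))
    (fun i ω c => by rw [Tm_update_blank (by simp)])
  have h2 := sum_le_card_nsmul univ _ _ fun i _ => h n M hn hM 0 i
  rw [card_univ, Fintype.card_fin, nsmul_eq_mul] at h2
  refine le_trans (le_of_eq ?_) (h1.trans h2)
  have hT : ∀ ω : Fin M → Clause k n, Tm vi (fun _ => 0) (fun _ => false) ω ≤ M + 1 :=
    fun ω => Tm_le
  rw [Ex_congr fun ω => sq_eq_sum _ _ (hT ω), Ex_congr fun ω => cast_eq_sum _ _ (hT ω), Ex_sum,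
    Ex_sum]
  congr 1
  · refine sum_congr rfl fun m hm => ?_
    rw [Ex_const_mul, Ex_lt_Tm_zero hn (Nat.lt_succ_iff.1 (mem_range.1 hm))]
  · congr 1
    refine sum_congr rfl fun m hm => ?_
    rw [Ex_lt_Tm_zero hn (Nat.lt_succ_iff.1 (mem_range.1 hm))]

theorem summable_lin_geom {θ : ℝ} (h0 : 0 ≤ θ) (h1 : θ < 1) :
    Summable fun m : ℕ => (2 * (m : ℝ) + 1) * θ ^ m := by
  have h2 := summable_pow_mul_geometric_of_norm_lt_one 1 (r := θ)
    (by rwa [Real.norm_eq_abs, abs_of_nonneg h0])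
  refine ((h2.mul_left 2).add (summable_geometric_of_lt_one h0 h1)).congr fun m => ?_
  ring

theorem variance_le (k : ℕ) (hk : 3 ≤ k) : ∃ C : ℝ, ∀ n : ℕ, k ≤ n →
    Summable (fun m : ℕ => satProb k n m) ∧
    Summable (fun m : ℕ => (2 * (m : ℝ) + 1) * satProb k n m) ∧
    (∑' m : ℕ, (2 * (m : ℝ) + 1) * satProb k n m) - (∑' m : ℕ, satProb k n m) ^ 2 ≤ C * n := by
  obtain ⟨ρ, hρ⟩ : ∃ ρ : ℝ, ρ = 1 - (1 / 2) ^ k := ⟨_, rfl⟩
  have hρ0 : 0 ≤ ρ := by
    rw [hρ, sub_nonneg]; exact pow_le_one₀ (by norm_num) (by norm_num)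
  have hρ1 : ρ < 1 := by
    rw [hρ, sub_lt_self_iff]; positivity
  obtain ⟨θ, hθ⟩ : ∃ θ : ℝ, θ = √ρ := ⟨_, rfl⟩
  have hθ0 : 0 ≤ θ := hθ ▸ Real.sqrt_nonneg _
  have hθ1 : θ < 1 := by rw [hθ, Real.sqrt_lt' one_pos]; simpa using hρ1
  have hθρ : θ * θ = ρ := hθ ▸ Real.mul_self_sqrt hρ0
  obtain ⟨L, hL⟩ := exists_pow_lt_of_lt_one (show (0 : ℝ) < 1 / 2 by norm_num) hθ1
  obtain ⟨K, hK, h⟩ := var_finite hk (L + 1)
  have hs := summable_lin_geom hθ0 hθ1
  obtain ⟨Z, hZ⟩ : ∃ Z, Z = ∑' m : ℕ, (2 * (m : ℝ) + 1) * θ ^ m := ⟨_, rfl⟩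
  have hZ0 : 0 ≤ Z := hZ ▸ tsum_nonneg fun m => by positivity
  refine ⟨L * K + Z, fun n hn => ?_⟩
  have hn1 : (1 : ℝ) ≤ n := by exact_mod_cast (by omega : 1 ≤ n)
  have hp := satProb_le hn
  rw [← hρ] at hp
  have hp0 := satProb_nonneg k n
  have s2 : Summable (fun m : ℕ => (2 * (m : ℝ) + 1) * satProb k n m) := by
    refine Summable.of_nonneg_of_le (fun m => mul_nonneg (by positivity) (hp0 m)) (fun m => ?_)
      ((summable_lin_geom hρ0 hρ1).mul_left (2 ^ n))
    rw [mul_left_comm]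
    exact mul_le_mul_of_nonneg_left (hp m) (by positivity)
  have s1 : Summable (fun m : ℕ => satProb k n m) := by
    refine Summable.of_nonneg_of_le hp0 (fun m => ?_) s2
    refine le_mul_of_one_le_left (hp0 m) ?_
    have : (0 : ℝ) ≤ m := by positivity
    linarith
  refine ⟨s1, s2, ?_⟩
  have h1 := h n (L * n) hn (by push_cast; nlinarith)
  have h2 := s1.sum_le_tsum (range (L * n + 1)) fun m _ => hp0 m
  have h3 := pow_le_pow_left₀ (sum_nonneg fun m _ => hp0 m) h2 2
  rw [← s2.sum_add_tsum_nat_add (L * n + 1)]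
  have h4 : ∑' m : ℕ, (2 * ((m + (L * n + 1) : ℕ) : ℝ) + 1) * satProb k n (m + (L * n + 1)) ≤ Z := by
    have h5 := hs.sum_add_tsum_nat_add (L * n + 1)
    have h6 : 0 ≤ ∑ m ∈ range (L * n + 1), (2 * (m : ℝ) + 1) * θ ^ m :=
      sum_nonneg fun m _ => by positivity
    refine le_trans ?_ (le_trans (le_add_of_nonneg_left h6) (h5.trans hZ.symm).le)
    refine Summable.tsum_le_tsum (fun m => ?_)
      ((summable_nat_add_iff (f := fun m : ℕ => (2 * (m : ℝ) + 1) * satProb k n m) _).2 s2)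
      ((summable_nat_add_iff (f := fun m : ℕ => (2 * (m : ℝ) + 1) * θ ^ m) _).2 hs)
    refine mul_le_mul_of_nonneg_left ((hp _).trans ?_) (by positivity)
    rw [← hθρ, mul_pow, ← mul_assoc]
    refine mul_le_of_le_one_left (by positivity) ?_
    have h7 : θ ^ (m + (L * n + 1)) ≤ (1 / 2) ^ n := by
      refine (pow_le_pow_of_le_one hθ0 hθ1.le (show L * n ≤ _ by omega)).trans ?_
      rw [pow_mul]
      exact pow_le_pow_left₀ (by positivity) hL.le n
    refine (mul_le_mul_of_nonneg_left h7 (by positivity)).trans (le_of_eq ?_)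
    rw [← mul_pow]; norm_num
  push_cast at h1 h4 ⊢
  nlinarith

end Crest.Agent.R153
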